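import Vale.Agent.Lib.P074.Cap

open MeasureTheory Set
open scoped ENNReal NNReal

namespace Vale.Agent.Lib.P074

variable {d : ℕ}

lemma W2_le_of_coupling (μ ν : Measure (E d)) (π : Measure (E d × E d))
    (h1 : π.map Prod.fst = μ) (h2 : π.map Prod.snd = ν) :
    W2 μ ν ≤ (∫⁻ p, ‖p.1 - p.2‖ₑ ^ 2 ∂π) ^ (1 / 2 : ℝ) := by
  unfold W2
  apply ENNReal.rpow_le_rpow _ (by norm_num)
  exact iInf_le (fun π : {π : Measure (E d × E d) // π.map Prod.fst = μ ∧ π.map Prod.snd = ν} =>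
    ∫⁻ p, ‖p.1 - p.2‖ₑ ^ 2 ∂π.1) ⟨π, h1, h2⟩

lemma W2_capMap_le (ρ : Measure (E d)) [IsFiniteMeasure ρ] {A A' : Set (E d)}
    (hA : MeasurableSet A) (hA' : MeasurableSet A') (hm : ρ A = ρ A') (y y' : E d) :
    W2 (ρ.map (capMap A y)) (ρ.map (capMap A' y')) ≤ (‖y - y'‖ₑ ^ 2 * ρ A') ^ (1 / 2 : ℝ) := by
  have hR : Measurable (capMap A' y) := measurable_capMap hA' y
  have hT' : Measurable (capMap A' y') := measurable_capMap hA' y'
  have hlaw : ρ.map (capMap A' y) = ρ.map (capMap A y) := by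
    rw [map_capMap ρ hA, map_capMap ρ hA', hm, measure_compl hA (measure_ne_top _ _),
      measure_compl hA' (measure_ne_top _ _), hm]
  have hpair : Measurable fun x => (capMap A' y x, capMap A' y' x) := hR.prodMk hT'
  have h := W2_le_of_coupling (ρ.map (capMap A y)) (ρ.map (capMap A' y'))
    (ρ.map fun x => (capMap A' y x, capMap A' y' x))
    (by rw [Measure.map_map measurable_fst hpair, ← hlaw]; rfl)
    (by rw [Measure.map_map measurable_snd hpair]; rfl)
  refine h.trans (le_of_eq ?_)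
  congr 1
  have hm2 : Measurable fun p : E d × E d => ‖p.1 - p.2‖ₑ ^ 2 := by fun_prop
  rw [lintegral_map hm2 hpair]
  have : (fun x => ‖capMap A' y x - capMap A' y' x‖ₑ ^ 2) = A'.indicator fun _ => ‖y - y'‖ₑ ^ 2 := by
    ext x
    by_cases hx : x ∈ A'
    · simp [capMap, hx]
    · simp [capMap, hx]
  rw [this, lintegral_indicator_const hA']

lemma eLpNorm_ge (ρ : Measure (E d)) (f : E d → E d) (B : Set (E d)) (hB : MeasurableSet B)
    (h : ∀ x ∈ B, 1 ≤ ‖f x‖) : (ρ B) ^ (1 / 2 : ℝ) ≤ eLpNorm f 2 ρ := by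
  rw [eLpNorm_eq_lintegral_rpow_enorm_toReal (by norm_num) (by norm_num)]
  simp only [ENNReal.toReal_ofNat]
  apply ENNReal.rpow_le_rpow _ (by norm_num)
  calc ρ B = ∫⁻ x, B.indicator (fun _ => (1 : ℝ≥0∞)) x ∂ρ := by
        rw [lintegral_indicator_const hB, one_mul]
    _ ≤ ∫⁻ x, ‖f x‖ₑ ^ (2 : ℝ) ∂ρ := by
        apply lintegral_mono
        intro x
        by_cases hx : x ∈ B
        · simp only [Set.indicator_of_mem hx]
          have h1 : (1 : ℝ≥0∞) ≤ ‖f x‖ₑ := by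
            rw [← ofReal_norm, ← ENNReal.ofReal_one]
            exact ENNReal.ofReal_le_ofReal (h x hx)
          exact ENNReal.one_le_rpow h1 (by norm_num)
        · simp [Set.indicator_of_notMem hx]

end Vale.Agent.Lib.P074
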