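import Vale.Agent.Lib.P074.Defs

/-!
# P074: Brenier maps (a.e. subgradients of a convex function)
-/

open MeasureTheory
open scoped ENNReal NNReal

namespace Vale.Agent.Lib.P074

/-- `T` is a Brenier map from `ρ` to `μ`: a Borel map with `T_# ρ = μ` which `ρ`-almost everywhere
is a (sub)gradient of one convex function `φ : R^d → R`, that is
`φ z ≥ φ x + <T x, z - x>` for all `z`. -/
def IsBrenierMap {d : ℕ} (ρ μ : Measure (E d)) (T : E d → E d) : Prop :=
  Measurable T ∧ ρ.map T = μ ∧ ∃ φ : E d → ℝ, ConvexOn ℝ Set.univ φ ∧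
    ∀ᵐ x ∂ρ, ∀ z : E d, φ x + inner ℝ (T x) (z - x) ≤ φ z

end Vale.Agent.Lib.P074
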