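import Vale.Agent.Lib.P074.Cube

open MeasureTheory Set
open scoped ENNReal NNReal

namespace Vale.Agent.Lib.P074

variable {d : ℕ}

/-- the two-valued map equal to `y` on `A` and to `0` elsewhere -/
noncomputable def capMap (A : Set (E d)) (y : E d) : E d → E d := A.indicator fun _ => y

lemma measurable_capMap {A : Set (E d)} (hA : MeasurableSet A) (y : E d) :
    Measurable (capMap A y) := measurable_const.indicator hA

lemma map_capMap (ρ : Measure (E d)) {A : Set (E d)} (hA : MeasurableSet A) (y : E d) :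
    ρ.map (capMap A y) = ρ A • Measure.dirac y + ρ Aᶜ • Measure.dirac 0 := by
  ext s hs
  rw [Measure.map_apply (measurable_capMap hA y) hs]
  simp only [Measure.add_apply, Measure.smul_apply, Measure.dirac_apply' _ hs, smul_eq_mul]
  classical
  unfold capMap
  rw [Set.indicator_const_preimage_eq_union]
  by_cases h1 : y ∈ s <;> by_cases h0 : (0 : E d) ∈ s <;> simp [h1, h0, measure_add_measure_compl hA]

lemma enorm_sq_eq (v : E d) : ‖v‖ₑ ^ 2 = ENNReal.ofReal (‖v‖ ^ 2) := by
  rw [ENNReal.ofReal_pow (norm_nonneg v), ofReal_norm]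

lemma halfspace_measurable (y : E d) (c : ℝ) : MeasurableSet {x : E d | c < inner ℝ x y} := by
  have : Continuous fun x : E d => inner ℝ x y := by fun_prop
  exact (isOpen_lt continuous_const this).measurableSet


/-- pointwise Fenchel-type inequality behind the optimality of cap maps -/
lemma pointwise_ineq (y : E d) (c : ℝ) (hc : 0 ≤ c) (x z : E d) (hz : z = 0 ∨ z = y) (hy : y ≠ 0) :
    ‖x‖ₑ ^ 2 + ‖z‖ₑ ^ 2 ≤ ‖x - z‖ₑ ^ 2 + ENNReal.ofReal (2 * max 0 (inner ℝ x y - c))
      + ENNReal.ofReal (2 * ({y} : Set (E d)).indicator (fun _ => c) z) := by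
  have hφ : 0 ≤ 2 * max 0 (inner ℝ x y - c) := by positivity
  have hψ : 0 ≤ 2 * ({y} : Set (E d)).indicator (fun _ => c) z := by
    have : 0 ≤ ({y} : Set (E d)).indicator (fun _ => c) z := Set.indicator_nonneg (fun _ _ => hc) z
    positivity
  rw [enorm_sq_eq, enorm_sq_eq, enorm_sq_eq, ← ENNReal.ofReal_add (by positivity) (by positivity),
    ← ENNReal.ofReal_add (by positivity) hφ, ← ENNReal.ofReal_add (by positivity) hψ]
  apply ENNReal.ofReal_le_ofReal
  rcases hz with rfl | rfl
  · have : ({y} : Set (E d)).indicator (fun _ => c) 0 = 0 := by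
      apply Set.indicator_of_notMem
      simpa using hy.symm
    rw [this]
    simp only [sub_zero, norm_zero]
    nlinarith [le_max_left 0 (inner ℝ x y - c)]
  · have : ({z} : Set (E d)).indicator (fun _ => c) z = c := Set.indicator_of_mem (mem_singleton z) _
    rw [this, norm_sub_sq_real]
    nlinarith [le_max_right 0 (inner ℝ x z - c)]

lemma pointwise_eq (y : E d) (c : ℝ) (hc : 0 ≤ c) (x : E d) (hy : y ≠ 0) :
    ‖x‖ₑ ^ 2 + ‖capMap {x | c < inner ℝ x y} y x‖ₑ ^ 2 =
      ‖x - capMap {x | c < inner ℝ x y} y x‖ₑ ^ 2 + ENNReal.ofReal (2 * max 0 (inner ℝ x y - c))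
      + ENNReal.ofReal (2 * ({y} : Set (E d)).indicator (fun _ => c)
          (capMap {x | c < inner ℝ x y} y x)) := by
  have hφ : 0 ≤ 2 * max 0 (inner ℝ x y - c) := by positivity
  have hψ : ∀ z, 0 ≤ 2 * ({y} : Set (E d)).indicator (fun _ => c) z := by
    intro z
    have : 0 ≤ ({y} : Set (E d)).indicator (fun _ => c) z := Set.indicator_nonneg (fun _ _ => hc) z
    positivity
  rw [enorm_sq_eq, enorm_sq_eq, enorm_sq_eq, ← ENNReal.ofReal_add (by positivity) (by positivity),
    ← ENNReal.ofReal_add (by positivity) hφ, ← ENNReal.ofReal_add (by positivity) (hψ _)]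
  congr 1
  by_cases hx : c < inner ℝ x y
  · have h1 : capMap {x | c < inner ℝ x y} y x = y := Set.indicator_of_mem (show x ∈ {x | c < inner ℝ x y} from hx) _
    have : ({y} : Set (E d)).indicator (fun _ => c) y = c := Set.indicator_of_mem (mem_singleton y) _
    rw [h1, this, norm_sub_sq_real, max_eq_right (by linarith)]
    ring
  · have h1 : capMap {x | c < inner ℝ x y} y x = 0 := Set.indicator_of_notMem (show x ∉ {x | c < inner ℝ x y} from hx) _
    have : ({y} : Set (E d)).indicator (fun _ => c) 0 = 0 := by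
      apply Set.indicator_of_notMem
      simpa using hy.symm
    rw [h1, this, max_eq_left (by linarith)]
    simp


/-- A cap map (value `y` on the half-space `{c < <x, y>}`, value `0` elsewhere) is a quadratic
optimal transport map from `ρ` onto its image measure. -/
lemma isOTMap_capMap (ρ : Measure (E d)) [IsFiniteMeasure ρ] (y : E d) (hy : y ≠ 0) (c : ℝ)
    (hc : 0 ≤ c) (hfin : ∫⁻ x, ENNReal.ofReal (2 * max 0 (inner ℝ x y - c)) ∂ρ ≠ ∞) :
    IsOTMap ρ (ρ.map (capMap {x | c < inner ℝ x y} y)) (capMap {x | c < inner ℝ x y} y) := by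
  set A : Set (E d) := {x | c < inner ℝ x y} with hA
  have hAm : MeasurableSet A := halfspace_measurable y c
  have hT : Measurable (capMap A y) := measurable_capMap hAm y
  refine ⟨hT, rfl, ?_⟩
  intro S hS hmap
  -- measurability facts
  have hψm : Measurable fun z : E d => ENNReal.ofReal (2 * ({y} : Set (E d)).indicator (fun _ => c) z) := by
    apply ENNReal.measurable_ofReal.comp
    exact (measurable_const.indicator (measurableSet_singleton y)).const_mul 2
  have hφm : Measurable fun x : E d => ENNReal.ofReal (2 * max 0 (inner ℝ x y - c)) := by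
    apply ENNReal.measurable_ofReal.comp
    have : Continuous fun x : E d => 2 * max 0 (inner ℝ x y - c) := by fun_prop
    exact this.measurable
  have hnm : Measurable fun z : E d => ‖z‖ₑ ^ 2 := by fun_prop
  -- S takes values in {0, y} almost everywhere
  have hSae : ∀ᵐ x ∂ρ, S x = 0 ∨ S x = y := by
    have hset : MeasurableSet ({0, y} : Set (E d))ᶜ :=
      ((measurableSet_singleton y).insert 0).compl
    have h1 : ρ.map S ({0, y} : Set (E d))ᶜ = 0 := by
      rw [hmap, Measure.map_apply hT hset]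
      have : capMap A y ⁻¹' ({0, y} : Set (E d))ᶜ = ∅ := by
        ext x
        simp only [mem_preimage, mem_compl_iff, mem_insert_iff, mem_singleton_iff, mem_empty_iff_false,
          iff_false, not_not]
        by_cases hx : x ∈ A
        · right; exact Set.indicator_of_mem hx _
        · left; exact Set.indicator_of_notMem hx _
      rw [this, measure_empty]
    rw [Measure.map_apply hS hset] at h1
    have := measure_eq_zero_iff_ae_notMem.mp h1
    filter_upwards [this] with x hx
    simp only [mem_preimage, mem_compl_iff, mem_insert_iff, mem_singleton_iff, not_not] at hx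
    exact hx
  -- the two integrated relations
  have key : ∀ R : E d → E d, Measurable R →
      ∫⁻ x, (‖x‖ₑ ^ 2 + ‖R x‖ₑ ^ 2) ∂ρ = ∫⁻ x, ‖x‖ₑ ^ 2 ∂ρ + ∫⁻ z, ‖z‖ₑ ^ 2 ∂(ρ.map R) := by
    intro R hR
    rw [lintegral_add_left hnm, lintegral_map hnm hR]
  have key2 : ∀ R : E d → E d, Measurable R →
      ∫⁻ x, (‖x - R x‖ₑ ^ 2 + ENNReal.ofReal (2 * max 0 (inner ℝ x y - c))
        + ENNReal.ofReal (2 * ({y} : Set (E d)).indicator (fun _ => c) (R x))) ∂ρ
      = cost ρ R + (∫⁻ x, ENNReal.ofReal (2 * max 0 (inner ℝ x y - c)) ∂ρ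
        + ∫⁻ z, ENNReal.ofReal (2 * ({y} : Set (E d)).indicator (fun _ => c) z) ∂(ρ.map R)) := by
    intro R hR
    have h2 : Measurable fun x : E d =>
        ENNReal.ofReal (2 * ({y} : Set (E d)).indicator (fun _ => c) (R x)) := hψm.comp hR
    rw [lintegral_add_right _ h2, lintegral_add_right _ hφm, lintegral_map hψm hR, cost,
      add_assoc]
  have hle : ∫⁻ x, (‖x‖ₑ ^ 2 + ‖S x‖ₑ ^ 2) ∂ρ ≤
      ∫⁻ x, (‖x - S x‖ₑ ^ 2 + ENNReal.ofReal (2 * max 0 (inner ℝ x y - c))
        + ENNReal.ofReal (2 * ({y} : Set (E d)).indicator (fun _ => c) (S x))) ∂ρ := by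
    apply lintegral_mono_ae
    filter_upwards [hSae] with x hx
    exact pointwise_ineq y c hc x (S x) hx hy
  have heq : ∫⁻ x, (‖x‖ₑ ^ 2 + ‖capMap A y x‖ₑ ^ 2) ∂ρ =
      ∫⁻ x, (‖x - capMap A y x‖ₑ ^ 2 + ENNReal.ofReal (2 * max 0 (inner ℝ x y - c))
        + ENNReal.ofReal (2 * ({y} : Set (E d)).indicator (fun _ => c) (capMap A y x))) ∂ρ := by
    apply lintegral_congr
    intro x
    exact pointwise_eq y c hc x hy
  rw [key S hS, key2 S hS, hmap] at hle
  rw [key _ hT, key2 _ hT] at heq
  rw [heq] at hle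
  -- cancel the finite term
  have hfin2 : ∫⁻ z, ENNReal.ofReal (2 * ({y} : Set (E d)).indicator (fun _ => c) z)
      ∂(ρ.map (capMap A y)) ≠ ∞ := by
    have : IsFiniteMeasure (ρ.map (capMap A y)) := by infer_instance
    apply ne_top_of_le_ne_top (b := ENNReal.ofReal (2 * c) * (ρ.map (capMap A y)) univ)
    · exact ENNReal.mul_ne_top ENNReal.ofReal_ne_top (measure_ne_top _ _)
    · calc _ ≤ ∫⁻ _z, ENNReal.ofReal (2 * c) ∂(ρ.map (capMap A y)) := by
            apply lintegral_mono
            intro z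
            apply ENNReal.ofReal_le_ofReal
            have : ({y} : Set (E d)).indicator (fun _ => c) z ≤ c :=
              Set.indicator_le_self' (fun _ _ => hc) z
            linarith
        _ = _ := by simp
  exact (ENNReal.add_le_add_iff_right (ENNReal.add_ne_top.mpr ⟨hfin, hfin2⟩)).mp hle

end Vale.Agent.Lib.P074
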