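import Vale.Agent.Lib.P074.SecDiff

open MeasureTheory Set
open scoped ENNReal NNReal

namespace Vale.Agent.Lib.P074

variable {d : ℕ}

/-- Legendre-type conjugate of `φ` over the closed ball of radius `L` -/
noncomputable def conjBall (L : ℝ) (φ : E d → ℝ) (y : E d) : ℝ :=
  sSup ((fun z => inner ℝ z y - φ z) '' Metric.closedBall (0 : E d) L)

lemma conjBall_bdd (L : ℝ) {φ : E d → ℝ} (hφ : Continuous φ) (y : E d) :
    BddAbove ((fun z => inner ℝ z y - φ z) '' Metric.closedBall (0 : E d) L) := by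
  have : Continuous fun z : E d => inner ℝ z y - φ z := by fun_prop
  exact ((isCompact_closedBall (0 : E d) L).image this).bddAbove

lemma le_conjBall (L : ℝ) {φ : E d → ℝ} (hφ : Continuous φ) (y z : E d) (hz : ‖z‖ ≤ L) :
    inner ℝ z y - φ z ≤ conjBall L φ y :=
  le_csSup (conjBall_bdd L hφ y) ⟨z, by simpa using hz, rfl⟩

lemma conjBall_le {L : ℝ} (hL : 0 ≤ L) {φ : E d → ℝ} (y : E d) (c : ℝ)
    (h : ∀ z : E d, ‖z‖ ≤ L → inner ℝ z y - φ z ≤ c) : conjBall L φ y ≤ c := by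
  apply csSup_le
  · exact ⟨_, ⟨0, by simpa using hL, rfl⟩⟩
  · rintro _ ⟨z, hz, rfl⟩
    exact h z (by simpa using hz)

lemma conjBall_le_add {L : ℝ} (hL : 0 ≤ L) {φ : E d → ℝ} (hφ : Continuous φ) (y y' : E d) :
    conjBall L φ y ≤ conjBall L φ y' + L * ‖y - y'‖ := by
  apply conjBall_le hL
  intro z hz
  have h1 := le_conjBall L hφ y' z hz
  have h2 : inner ℝ z y - inner ℝ z y' ≤ L * ‖y - y'‖ := by
    rw [← inner_sub_right]
    calc inner ℝ z (y - y') ≤ ‖z‖ * ‖y - y'‖ := real_inner_le_norm _ _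
      _ ≤ L * ‖y - y'‖ := by gcongr
  linarith

lemma conjBall_lipschitz {L : ℝ≥0} {φ : E d → ℝ} (hφ : Continuous φ) :
    LipschitzWith L (conjBall (L : ℝ) φ) := by
  apply LipschitzWith.of_dist_le_mul
  intro y y'
  rw [Real.dist_eq, dist_eq_norm, abs_le]
  have h1 := conjBall_le_add L.coe_nonneg hφ y y'
  have h2 := conjBall_le_add L.coe_nonneg hφ y' y
  rw [norm_sub_rev] at h2
  constructor <;> linarith

/-- at a point where `y` is a subgradient, the conjugate is attained -/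
lemma conjBall_eq {L : ℝ} (hL : 0 ≤ L) {φ : E d → ℝ} (hφ : Continuous φ) (x y : E d) (hx : ‖x‖ ≤ L)
    (hs : ∀ z, φ x + inner ℝ y (z - x) ≤ φ z) : conjBall L φ y = inner ℝ x y - φ x := by
  apply le_antisymm
  · apply conjBall_le hL
    intro z _
    have := hs z
    rw [inner_sub_right, real_inner_comm, real_inner_comm x y] at this
    linarith
  · exact le_conjBall L hφ y x hx

/-- **Key pointwise inequality.** -/
lemma key_pointwise {L : ℝ} (hL : 0 ≤ L) {φ0 φ1 : E d → ℝ} (h0 : Continuous φ0) (h1 : Continuous φ1)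
    (x y0 y1 v : E d) (hx : ‖x‖ + ‖v‖ ≤ L)
    (hs0 : ∀ z, φ0 x + inner ℝ y0 (z - x) ≤ φ0 z) (hs1 : ∀ z, φ1 x + inner ℝ y1 (z - x) ≤ φ1 z) :
    |inner ℝ v (y1 - y0)| ≤ secDiff φ0 v x
      + ((conjBall L φ0 y1 - conjBall L φ1 y1) - (conjBall L φ0 y0 - conjBall L φ1 y0)) := by
  have hxL : ‖x‖ ≤ L := by linarith [norm_nonneg v]
  have e0 := conjBall_eq hL h0 x y0 hxL hs0
  have e1 := conjBall_eq hL h1 x y1 hxL hs1
  have a1 := le_conjBall L h1 y0 x hxL
  have ap := le_conjBall L h0 y1 (x + v) ((norm_add_le _ _).trans hx)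
  have am := le_conjBall L h0 y1 (x - v) ((norm_sub_le _ _).trans hx)
  have sp := hs0 (x + v)
  have sm := hs0 (x - v)
  simp only [add_sub_cancel_left, sub_sub_cancel_left, inner_neg_right] at sp sm
  rw [inner_add_left] at ap
  rw [inner_sub_left] at am
  rw [inner_sub_right, real_inner_comm y0 v] 
  unfold secDiff
  rw [abs_le]
  constructor <;> linarith

end Vale.Agent.Lib.P074
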