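import Vale.Agent.Lib.P074.W1

open MeasureTheory Set
open scoped ENNReal NNReal

namespace Vale.Agent.Lib.P074

variable {d : ℕ}

/-- the `L^1` constant in the stability estimate -/
noncomputable def stabC1 (K : Set (E d)) (RK R : ℝ≥0) : ℝ :=
  (volume K).toReal⁻¹ * (R * (volume (Metric.closedBall (0 : E d) (RK + 2))).toReal)
    + ((RK + 1 + (RK + 1) : ℝ≥0) : ℝ) + (R + R)

lemma stabC1_nonneg (K : Set (E d)) (RK R : ℝ≥0) : 0 ≤ stabC1 K RK R := by
  unfold stabC1
  positivity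

lemma W1_map_ne_top {K : Set (E d)} (hK : IsCompact K) (hKvol : volume K ≠ 0) {R : ℝ≥0}
    {T0 T1 : E d → E d} (hT0 : Measurable T0) (hT1 : Measurable T1)
    (hb0 : ∀ᵐ x ∂(unif K), ‖T0 x‖ ≤ R) (hb1 : ∀ᵐ x ∂(unif K), ‖T1 x‖ ≤ R) :
    W1 ((unif K).map T0) ((unif K).map T1) ≠ ∞ := by
  have hprob : IsProbabilityMeasure (unif K) := unif_isProb hK hKvol
  have hpair : Measurable fun x => (T0 x, T1 x) := hT0.prodMk hT1
  have h1 : W1 ((unif K).map T0) ((unif K).map T1) ≤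
      ∫⁻ p, enorm (p.1 - p.2) ∂((unif K).map fun x => (T0 x, T1 x)) :=
    iInf_le (fun π : {π : Measure (E d × E d) // π.map Prod.fst = (unif K).map T0 ∧
      π.map Prod.snd = (unif K).map T1} => ∫⁻ p, enorm (p.1 - p.2) ∂π.1)
      ⟨(unif K).map fun x => (T0 x, T1 x), by rw [Measure.map_map measurable_fst hpair]; rfl,
        by rw [Measure.map_map measurable_snd hpair]; rfl⟩
  have hm : Measurable fun p : E d × E d => enorm (p.1 - p.2) := by fun_prop
  rw [lintegral_map hm hpair] at h1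
  have h2 : ∫⁻ x, enorm (T0 x - T1 x) ∂(unif K) ≤ ∫⁻ _x, ENNReal.ofReal (R + R) ∂(unif K) := by
    apply lintegral_mono_ae
    filter_upwards [hb0, hb1] with x h0 h1
    rw [← ofReal_norm]
    exact ENNReal.ofReal_le_ofReal ((norm_sub_le _ _).trans (by linarith))
  have h3 : ∫⁻ _x, ENNReal.ofReal (R + R) ∂(unif K) = ENNReal.ofReal (R + R) := by simp
  exact ne_top_of_le_ne_top ENNReal.ofReal_ne_top (h1.trans (h2.trans h3.le))

/-- each coordinate of `T1 - T0` is small in `L^1(ρ)` -/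
lemma coord_l1_le {K : Set (E d)} (hK : IsCompact K) (hKvol : volume K ≠ 0) {RK : ℝ≥0}
    (hKR : ∀ x ∈ K, ‖x‖ ≤ RK) {R : ℝ≥0} {T0 T1 : E d → E d} (hT0 : Measurable T0)
    (hT1 : Measurable T1) (hb0 : ∀ᵐ x ∂(unif K), ‖T0 x‖ ≤ R) (hb1 : ∀ᵐ x ∂(unif K), ‖T1 x‖ ≤ R)
    {φ0 φ1 : E d → ℝ} (hc0 : ConvexOn ℝ univ φ0) (hl0 : LipschitzWith R φ0)
    (hl1 : LipschitzWith R φ1)
    (hs0 : ∀ᵐ x ∂(unif K), ∀ z, φ0 x + inner ℝ (T0 x) (z - x) ≤ φ0 z)
    (hs1 : ∀ᵐ x ∂(unif K), ∀ z, φ1 x + inner ℝ (T1 x) (z - x) ≤ φ1 z) (k : Fin d) :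
    ∫ x, |(T1 x - T0 x) k| ∂(unif K) ≤
      stabC1 K RK R * Real.sqrt (W1 ((unif K).map T0) ((unif K).map T1)).toReal := by
  have hprob : IsProbabilityMeasure (unif K) := unif_isProb hK hKvol
  set w : ℝ := (W1 ((unif K).map T0) ((unif K).map T1)).toReal with hw
  have hWfin := W1_map_ne_top hK hKvol hT0 hT1 hb0 hb1
  have hWw : W1 ((unif K).map T0) ((unif K).map T1) = ENNReal.ofReal w :=
    (ENNReal.ofReal_toReal hWfin).symm
  have hcoord : ∀ᵐ x ∂(unif K), |(T1 x - T0 x) k| ≤ R + R := by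
    filter_upwards [hb0, hb1] with x h0 h1
    have := PiLp.norm_apply_le (T1 x - T0 x) k
    rw [Real.norm_eq_abs] at this
    exact this.trans ((norm_sub_le _ _).trans (by linarith))
  have hmeas : Measurable fun x => |(T1 x - T0 x) k| := by
    have h1 : Measurable fun x => (T1 x - T0 x) := hT1.sub hT0
    have h2 : Measurable fun y : E d => y k := by fun_prop
    exact (h2.comp h1).abs
  have iF : Integrable (fun x => |(T1 x - T0 x) k|) (unif K) :=
    Integrable.of_bound hmeas.aestronglyMeasurable (R + R)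
      (hcoord.mono fun x hx => by rw [Real.norm_eq_abs, abs_abs]; exact hx)
  unfold stabC1
  apply optimise_t (by positivity) (by positivity) ENNReal.toReal_nonneg (by positivity)
  · calc ∫ x, |(T1 x - T0 x) k| ∂(unif K) ≤ ∫ _x, ((R : ℝ) + R) ∂(unif K) :=
          integral_mono_ae iF (integrable_const _) hcoord
      _ = R + R := by simp
  · intro t ht0 ht1
    set v : E d := EuclideanSpace.single k t with hv
    have hvn : ‖v‖ = t := by simp [hv, abs_of_pos ht0]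
    have hin : ∀ y : E d, inner ℝ v y = t * y k := by
      intro y
      simp [hv, EuclideanSpace.inner_single_left]
    have hall : ∀ π : {π : Measure (E d × E d) // π.map Prod.fst = (unif K).map T0 ∧
        π.map Prod.snd = (unif K).map T1},
        ENNReal.ofReal (∫ x, |inner ℝ v (T1 x - T0 x)| ∂(unif K) - (volume K).toReal⁻¹ *
          (R * ‖v‖ ^ 2 * (volume (Metric.closedBall (0 : E d) (RK + 2))).toReal))
        ≤ ((RK + 1 + (RK + 1) : ℝ≥0) : ℝ≥0∞) * ∫⁻ p, enorm (p.1 - p.2) ∂π.1 := fun π =>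
      integrated_ineq hK hKvol hKR hT0 hT1 hb0 hb1 hc0 hl0 hl1 hs0 hs1 π.1 π.2.1 π.2.2 v
        (by rw [hvn]; exact ht1)
    have hne0 : ((RK + 1 + (RK + 1) : ℝ≥0) : ℝ≥0∞) ≠ 0 := by
      simp
    have hinf := le_iInf hall
    rw [← ENNReal.mul_iInf_of_ne hne0 ENNReal.coe_ne_top] at hinf
    change _ ≤ _ * W1 ((unif K).map T0) ((unif K).map T1) at hinf
    rw [hWw, ← ENNReal.ofReal_coe_nnreal, ← ENNReal.ofReal_mul (NNReal.coe_nonneg _),
      ENNReal.ofReal_le_ofReal_iff (mul_nonneg (NNReal.coe_nonneg _) ENNReal.toReal_nonneg)] at hinf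
    have e1 : ∫ x, |inner ℝ v (T1 x - T0 x)| ∂(unif K) = t * ∫ x, |(T1 x - T0 x) k| ∂(unif K) := by
      rw [← integral_const_mul]
      congr 1
      ext x
      rw [hin, abs_mul, abs_of_pos ht0]
    rw [e1, hvn] at hinf
    have e2 : (volume K).toReal⁻¹ * (R * t ^ 2 * (volume (Metric.closedBall (0 : E d) (RK + 2))).toReal)
        = (volume K).toReal⁻¹ * (R * (volume (Metric.closedBall (0 : E d) (RK + 2))).toReal) * t ^ 2 := by
      ring
    linarith

end Vale.Agent.Lib.P074
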