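import Vale.Agent.Lib.P074.Defs

open MeasureTheory Set
open scoped ENNReal NNReal

namespace Vale.Agent.Lib.P074

variable {d : ℕ}

/-- coordinate box in `R^d` -/
def box (s : Fin d → Set ℝ) : Set (E d) := {x | ∀ i, x i ∈ s i}

lemma box_eq_preimage (s : Fin d → Set ℝ) :
    box s = (WithLp.ofLp : E d → (Fin d → ℝ)) ⁻¹' (Set.univ.pi s) := by
  ext x; simp [box]

lemma measurableSet_box (s : Fin d → Set ℝ) (hs : ∀ i, MeasurableSet (s i)) :
    MeasurableSet (box s) := by
  rw [box_eq_preimage]
  exact (PiLp.volume_preserving_ofLp (Fin d)).measurable (MeasurableSet.univ_pi hs)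

lemma volume_box (s : Fin d → Set ℝ) (hs : ∀ i, MeasurableSet (s i)) :
    volume (box s) = ∏ i, volume (s i) := by
  rw [box_eq_preimage, (PiLp.volume_preserving_ofLp (Fin d)).measure_preimage
    (MeasurableSet.univ_pi hs).nullMeasurableSet, volume_pi_pi]

/-- the unit cube -/
def cube (d : ℕ) : Set (E d) := box (fun _ => Icc (0:ℝ) 1)

/-- two-coordinate sub-box of the cube -/
def box2 (i0 i1 : Fin d) (I J : Set ℝ) : Set (E d) :=
  box (Function.update (Function.update (fun _ => Icc (0:ℝ) 1) i0 I) i1 J)

lemma volume_box2 (i0 i1 : Fin d) (h : i0 ≠ i1) (I J : Set ℝ) (hI : MeasurableSet I)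
    (hJ : MeasurableSet J) : volume (box2 i0 i1 I J) = volume I * volume J := by
  unfold box2
  rw [volume_box]
  · rw [Fintype.prod_eq_mul i0 i1 h]
    · simp [Function.update_of_ne h]
    · rintro x ⟨h0, h1⟩
      simp [Function.update_of_ne h0, Function.update_of_ne h1]
  · intro i
    by_cases h1 : i = i1
    · subst h1; simpa using hJ
    · by_cases h0 : i = i0
      · subst h0; simpa [Function.update_of_ne h1] using hI
      · simp [Function.update_of_ne h1, Function.update_of_ne h0]

lemma mem_box2 (i0 i1 : Fin d) (h : i0 ≠ i1) (I J : Set ℝ) (x : E d) :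
    x ∈ box2 i0 i1 I J ↔ x i0 ∈ I ∧ x i1 ∈ J ∧ ∀ i, i ≠ i0 → i ≠ i1 → x i ∈ Icc (0:ℝ) 1 := by
  unfold box2 box
  simp only [Set.mem_ofPred_eq]
  constructor
  · intro hx
    refine ⟨?_, ?_, ?_⟩
    · have := hx i0
      simpa [Function.update_of_ne h] using this
    · have := hx i1
      simpa using this
    · intro i h0 h1
      have := hx i
      simpa [Function.update_of_ne h1, Function.update_of_ne h0] using this
  · rintro ⟨h0, h1, h2⟩ i
    by_cases hi1 : i = i1
    · subst hi1; simpa using h1
    · by_cases hi0 : i = i0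
      · subst hi0; simpa [Function.update_of_ne hi1] using h0
      · simpa [Function.update_of_ne hi1, Function.update_of_ne hi0] using h2 i hi0 hi1

lemma volume_cube : volume (cube d) = 1 := by
  unfold cube
  rw [volume_box _ (fun _ => measurableSet_Icc)]
  simp

lemma measurableSet_cube : MeasurableSet (cube d) := measurableSet_box _ (fun _ => measurableSet_Icc)

lemma isCompact_cube : IsCompact (cube d) := by
  have : cube d = (WithLp.toLp 2 : (Fin d → ℝ) → E d) '' (Set.univ.pi fun _ => Icc (0:ℝ) 1) := by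
    ext x
    constructor
    · intro hx
      exact ⟨x.ofLp, fun i _ => hx i, rfl⟩
    · rintro ⟨y, hy, rfl⟩
      exact fun i => hy i (mem_univ i)
  rw [this]
  exact (isCompact_univ_pi fun _ => isCompact_Icc).image (PiLp.continuous_toLp 2 _)

lemma convex_cube : Convex ℝ (cube d) := by
  intro x hx y hy a b ha hb hab i
  have hx' := hx i
  have hy' := hy i
  have := convex_Icc (0:ℝ) 1 hx' hy' ha hb hab
  simpa using this

lemma interior_cube_nonempty : (interior (cube d)).Nonempty := by
  have hopen : IsOpen (box (d := d) (fun _ => Ioo (0:ℝ) 1)) := by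
    rw [box_eq_preimage]
    exact (isOpen_set_pi finite_univ (fun _ _ => isOpen_Ioo)).preimage (PiLp.continuous_ofLp 2 _)
  have hsub : box (d := d) (fun _ => Ioo (0:ℝ) 1) ⊆ cube d := fun x hx i => Ioo_subset_Icc_self (hx i)
  refine ⟨WithLp.toLp 2 (fun _ => (1/2:ℝ)), interior_maximal hsub hopen ?_⟩
  intro i
  simp only [mem_Ioo]
  norm_num

lemma unif_cube : unif (cube d) = volume.restrict (cube d) := by
  simp [unif, volume_cube]

end Vale.Agent.Lib.P074
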