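import Vale.Agent.Lib.P074.Bounds

open MeasureTheory Set
open scoped ENNReal NNReal

namespace Vale.Agent.Lib.P074

variable {d : ℕ}

/-- the site `θ e_{i0} + e_{i1}` -/
noncomputable def site (i0 i1 : Fin d) (θ : ℝ) : E d :=
  EuclideanSpace.single i0 θ + EuclideanSpace.single i1 (1 : ℝ)

lemma inner_site (i0 i1 : Fin d) (θ : ℝ) (x : E d) :
    inner ℝ x (site i0 i1 θ) = θ * x i0 + x i1 := by
  simp [site, inner_add_right, EuclideanSpace.inner_single_right]

lemma norm_site_le (i0 i1 : Fin d) (θ : ℝ) (h0 : 0 ≤ θ) (h1 : θ ≤ 1) : ‖site i0 i1 θ‖ ≤ 2 := by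
  unfold site
  refine (norm_add_le _ _).trans ?_
  simp only [PiLp.norm_single, Real.norm_eq_abs, abs_one, abs_of_nonneg h0]
  linarith

lemma single_zero' (i0 : Fin d) : (EuclideanSpace.single i0 (0 : ℝ) : E d) = 0 := by simp

lemma norm_site_zero (i0 i1 : Fin d) : ‖site i0 i1 0‖ = 1 := by
  simp [site, single_zero']

lemma site_ne_zero (i0 i1 : Fin d) (h : i0 ≠ i1) (θ : ℝ) : site i0 i1 θ ≠ 0 := by
  intro h0
  have := congrArg (fun v : E d => v i1) h0
  simp [site, h] at this

lemma site_sub (i0 i1 : Fin d) (θ : ℝ) : ‖site i0 i1 θ - site i0 i1 0‖ₑ ^ 2 = ENNReal.ofReal (θ ^ 2) := by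
  rw [enorm_sq_eq]
  simp [site, single_zero']

lemma mem_cube_iff (x : E d) : x ∈ cube d ↔ ∀ i, x i ∈ Icc (0:ℝ) 1 := Iff.rfl

lemma box2_subset_cube (i0 i1 : Fin d) (h : i0 ≠ i1) (I J : Set ℝ) (hI : I ⊆ Icc 0 1) (hJ : J ⊆ Icc 0 1) :
    box2 i0 i1 I J ⊆ cube d := by
  intro x hx
  rw [mem_box2 i0 i1 h] at hx
  intro i
  by_cases h0 : i = i0
  · subst h0; exact hI hx.1
  · by_cases h1 : i = i1
    · subst h1; exact hJ hx.2.1
    · exact hx.2.2 i h0 h1

instance : IsProbabilityMeasure (volume.restrict (cube d)) :=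
  ⟨by rw [Measure.restrict_apply MeasurableSet.univ, univ_inter, volume_cube]⟩

lemma fin_cond (i0 i1 : Fin d) (θ c : ℝ) (h0 : 0 ≤ θ) (h1 : θ ≤ 1) (hc : 0 ≤ c) :
    ∫⁻ x, ENNReal.ofReal (2 * max 0 (inner ℝ x (site i0 i1 θ) - c)) ∂(volume.restrict (cube d)) ≠ ∞ := by
  apply ne_top_of_le_ne_top (b := ENNReal.ofReal 4 * (volume.restrict (cube d)) univ)
  · exact ENNReal.mul_ne_top ENNReal.ofReal_ne_top (measure_ne_top _ _)
  · calc _ ≤ ∫⁻ _x, ENNReal.ofReal 4 ∂(volume.restrict (cube d)) := by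
          apply lintegral_mono_ae
          filter_upwards [ae_restrict_mem measurableSet_cube] with x hx
          apply ENNReal.ofReal_le_ofReal
          rw [inner_site]
          have hx0 := hx i0
          have hx1 := hx i1
          have : θ * x i0 ≤ 1 := by nlinarith [hx0.1, hx0.2]
          have : max 0 (θ * x i0 + x i1 - c) ≤ 2 := max_le (by norm_num) (by linarith [hx1.2])
          linarith
      _ = _ := by simp


lemma map_capMap_compl (ρ : Measure (E d)) {A : Set (E d)} (hA : MeasurableSet A) (y : E d)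
    (Y : Set (E d)) (hY : MeasurableSet Y) (h0 : (0 : E d) ∈ Y) (hy : y ∈ Y) :
    ρ.map (capMap A y) Yᶜ = 0 := by
  rw [Measure.map_apply (measurable_capMap hA y) hY.compl]
  have : capMap A y ⁻¹' Yᶜ = ∅ := by
    ext x
    simp only [mem_preimage, mem_compl_iff, mem_empty_iff_false, iff_false, not_not]
    by_cases hx : x ∈ A
    · rw [show capMap A y x = y from Set.indicator_of_mem hx _]; exact hy
    · rw [show capMap A y x = 0 from Set.indicator_of_notMem hx _]; exact h0
  rw [this, measure_empty]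

lemma restrict_box2 (i0 i1 : Fin d) (h : i0 ≠ i1) (I J : Set ℝ) (hI : I ⊆ Icc 0 1) (hJ : J ⊆ Icc 0 1)
    (hIm : MeasurableSet I) (hJm : MeasurableSet J) :
    (volume.restrict (cube d)) (box2 i0 i1 I J) = volume I * volume J := by
  have hm : MeasurableSet (box2 i0 i1 I J) := by
    unfold box2
    apply measurableSet_box
    intro i
    by_cases h1 : i = i1
    · subst h1; simpa using hJm
    · by_cases h0 : i = i0
      · subst h0; simpa [Function.update_of_ne h1] using hIm
      · simp [Function.update_of_ne h1, Function.update_of_ne h0]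
  rw [Measure.restrict_apply hm, inter_eq_left.mpr (box2_subset_cube i0 i1 h I J hI hJ),
    volume_box2 i0 i1 h I J hIm hJm]

lemma measurableSet_box2 (i0 i1 : Fin d) (I J : Set ℝ)
    (hIm : MeasurableSet I) (hJm : MeasurableSet J) : MeasurableSet (box2 i0 i1 I J) := by
  unfold box2
  apply measurableSet_box
  intro i
  by_cases h1 : i = i1
  · subst h1; simpa using hJm
  · by_cases h0 : i = i0
    · subst h0; simpa [Function.update_of_ne h1] using hIm
    · simp [Function.update_of_ne h1, Function.update_of_ne h0]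

/-- mass of the slab `{1 - m < x_{i1}}` -/
lemma slab_mass (i0 i1 : Fin d) (h : i0 ≠ i1) (m : ℝ) (hm1 : m ≤ 1) :
    (volume.restrict (cube d)) {x | 1 - m < inner ℝ x (site i0 i1 0)} = ENNReal.ofReal m := by
  have hA : MeasurableSet {x : E d | 1 - m < inner ℝ x (site i0 i1 0)} := halfspace_measurable _ _
  rw [Measure.restrict_apply hA]
  have : {x : E d | 1 - m < inner ℝ x (site i0 i1 0)} ∩ cube d
      = box2 i0 i1 (Icc 0 1) (Ioc (1 - m) 1) := by
    ext x
    rw [mem_box2 i0 i1 h]
    simp only [mem_inter_iff, Set.mem_ofPred_eq, inner_site, zero_mul, zero_add]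
    constructor
    · rintro ⟨h1, h2⟩
      exact ⟨h2 i0, ⟨h1, (h2 i1).2⟩, fun i _ _ => h2 i⟩
    · rintro ⟨h1, h2, h3⟩
      refine ⟨h2.1, fun i => ?_⟩
      by_cases hi0 : i = i0
      · subst hi0; exact h1
      · by_cases hi1 : i = i1
        · subst hi1; exact ⟨by linarith [h2.1], h2.2⟩
        · exact h3 i hi0 hi1
  rw [this, volume_box2 i0 i1 h _ _ measurableSet_Icc measurableSet_Ioc]
  simp


/-- The pair of two-atom targets on the unit cube: the tilted cap against the flat slab. -/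
lemma cube_pair (i0 i1 : Fin d) (h : i0 ≠ i1) (θ : ℝ) (h0 : 0 < θ) (h1 : θ ≤ 1) :
    ∃ (μ ν : Measure (E d)) (Tμ Tν : E d → E d),
      IsProbabilityMeasure μ ∧ IsProbabilityMeasure ν ∧
      μ (Metric.closedBall 0 2)ᶜ = 0 ∧ ν (Metric.closedBall 0 2)ᶜ = 0 ∧
      IsOTMap (unif (cube d)) μ Tμ ∧ IsOTMap (unif (cube d)) ν Tν ∧
      W2 μ ν ≤ ENNReal.ofReal (θ ^ 3) ^ (1 / 2 : ℝ) ∧
      ENNReal.ofReal (θ / 32) ^ (1 / 2 : ℝ) ≤ eLpNorm (fun x => Tμ x - Tν x) 2 (unif (cube d)) := by
  rw [unif_cube]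
  set ρ : Measure (E d) := volume.restrict (cube d) with hρ
  set y : E d := site i0 i1 θ with hy
  set y' : E d := site i0 i1 0 with hy'
  set A : Set (E d) := {x | 1 + θ / 2 < inner ℝ x y} with hA
  have hAm : MeasurableSet A := halfspace_measurable _ _
  set m : ℝ := (ρ A).toReal with hm
  have hmA : ρ A = ENNReal.ofReal m := (ENNReal.ofReal_toReal (measure_ne_top _ _)).symm
  have hm0 : 0 ≤ m := ENNReal.toReal_nonneg
  -- lower bound for the mass of the tilted cap
  have hlow : ENNReal.ofReal (θ / 16) ≤ ρ A := by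
    have hsub : box2 i0 i1 (Ioc (3 / 4) 1) (Ioc (1 - θ / 4) 1) ⊆ A := by
      intro x hx
      rw [mem_box2 i0 i1 h] at hx
      simp only [hA, Set.mem_ofPred_eq, hy, inner_site]
      nlinarith [hx.1.1, hx.2.1.1]
    have hvol : ρ (box2 i0 i1 (Ioc (3 / 4) 1) (Ioc (1 - θ / 4) 1)) = ENNReal.ofReal (θ / 16) := by
      rw [hρ, restrict_box2 i0 i1 h _ _ (fun t ht => ⟨by linarith [ht.1], ht.2⟩)
        (fun t ht => ⟨by linarith [ht.1], ht.2⟩) measurableSet_Ioc measurableSet_Ioc,
        Real.volume_Ioc, Real.volume_Ioc, ← ENNReal.ofReal_mul (by norm_num)]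
      congr 1
      ring
    rw [← hvol]
    exact measure_mono hsub
  -- upper bound for the mass of the tilted cap
  have hup : ρ A ≤ ENNReal.ofReal (θ / 2) := by
    have hsub : A ∩ cube d ⊆ box2 i0 i1 (Icc 0 1) (Ioc (1 - θ / 2) 1) := by
      rintro x ⟨hx, hxc⟩
      rw [mem_box2 i0 i1 h]
      simp only [hA, Set.mem_ofPred_eq, hy, inner_site] at hx
      refine ⟨hxc i0, ⟨?_, (hxc i1).2⟩, fun i _ _ => hxc i⟩
      nlinarith [(hxc i0).2]
    rw [hρ, Measure.restrict_apply hAm]
    refine (measure_mono hsub).trans (le_of_eq ?_)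
    rw [volume_box2 i0 i1 h _ _ measurableSet_Icc measurableSet_Ioc, Real.volume_Icc, Real.volume_Ioc]
    simp
  have hmlow : θ / 16 ≤ m := by
    rw [hmA] at hlow
    exact (ENNReal.ofReal_le_ofReal_iff hm0).mp hlow
  have hmup : m ≤ θ / 2 := by
    rw [hmA] at hup
    exact (ENNReal.ofReal_le_ofReal_iff (by positivity)).mp hup
  set A' : Set (E d) := {x | 1 - m < inner ℝ x y'} with hA'
  have hAm' : MeasurableSet A' := halfspace_measurable _ _
  have hmA' : ρ A' = ENNReal.ofReal m := slab_mass i0 i1 h m (by linarith)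
  have hball : MeasurableSet (Metric.closedBall (0 : E d) 2) := Metric.isClosed_closedBall.measurableSet
  refine ⟨ρ.map (capMap A y), ρ.map (capMap A' y'), capMap A y, capMap A' y',
    Measure.isProbabilityMeasure_map (measurable_capMap hAm y).aemeasurable,
    Measure.isProbabilityMeasure_map (measurable_capMap hAm' y').aemeasurable,
    map_capMap_compl ρ hAm y _ hball (by simp) (by simpa using norm_site_le i0 i1 θ h0.le h1),
    map_capMap_compl ρ hAm' y' _ hball (by simp) (by simpa using norm_site_le i0 i1 0 le_rfl zero_le_one),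
    isOTMap_capMap ρ y (site_ne_zero i0 i1 h θ) (1 + θ / 2) (by positivity)
      (fin_cond i0 i1 θ _ h0.le h1 (by positivity)),
    isOTMap_capMap ρ y' (site_ne_zero i0 i1 h 0) (1 - m) (by linarith)
      (fin_cond i0 i1 0 _ le_rfl zero_le_one (by linarith)), ?_, ?_⟩
  · refine (W2_capMap_le ρ hAm hAm' (hmA.trans hmA'.symm) y y').trans ?_
    apply ENNReal.rpow_le_rpow _ (by norm_num)
    rw [hmA', hy, hy', site_sub, ← ENNReal.ofReal_mul (by positivity)]
    apply ENNReal.ofReal_le_ofReal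
    nlinarith [sq_nonneg θ]
  · set B : Set (E d) := box2 i0 i1 (Icc 0 (1 / 2)) (Ioc (1 - m) 1) with hB
    have hBm : MeasurableSet B := measurableSet_box2 i0 i1 _ _ measurableSet_Icc measurableSet_Ioc
    have hBvol : ρ B = ENNReal.ofReal (m / 2) := by
      rw [hρ, restrict_box2 i0 i1 h _ _ (fun t ht => ⟨ht.1, by linarith [ht.2]⟩)
        (fun t ht => ⟨by linarith [ht.1], ht.2⟩) measurableSet_Icc measurableSet_Ioc,
        Real.volume_Icc, Real.volume_Ioc, ← ENNReal.ofReal_mul (by norm_num)]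
      congr 1
      ring
    have hge := eLpNorm_ge ρ (fun x => capMap A y x - capMap A' y' x) B hBm (by
      intro x hx
      rw [hB, mem_box2 i0 i1 h] at hx
      have hxA : x ∉ A := by
        simp only [hA, Set.mem_ofPred_eq, hy, inner_site, not_lt]
        nlinarith [hx.1.2, hx.2.1.2]
      have hxA' : x ∈ A' := by
        simp only [hA', Set.mem_ofPred_eq, hy', inner_site, zero_mul, zero_add]
        exact hx.2.1.1
      rw [show capMap A y x = 0 from Set.indicator_of_notMem hxA _,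
        show capMap A' y' x = y' from Set.indicator_of_mem hxA' _, zero_sub, norm_neg, hy',
        norm_site_zero])
    refine le_trans ?_ hge
    apply ENNReal.rpow_le_rpow _ (by norm_num)
    rw [hBvol]
    apply ENNReal.ofReal_le_ofReal
    linarith

end Vale.Agent.Lib.P074
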