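import Mathlib

/-!
# P074: definitions (stability exponent of quadratic optimal transport maps)

All objects follow the conventions of the problem file: the source is the uniform
probability measure on a compact convex body `K` of `R^d`, targets are Borel probability
measures carried by a compact set `Y`, `T_mu` is a Borel map minimising the quadratic cost
among Borel maps pushing the source to `mu`, and `W_2` is the infimum over couplings.
All costs are extended nonnegative reals, so no integrability convention is hidden.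
-/

open MeasureTheory
open scoped ENNReal NNReal

namespace Vale.Agent.Lib.P074

/-- Euclidean space `R^d` with the Euclidean norm. -/
abbrev E (d : ℕ) : Type := EuclideanSpace ℝ (Fin d)

/-- The uniform probability measure on `K`: Lebesgue measure restricted to `K`, divided by `|K|`. -/
noncomputable def unif {d : ℕ} (K : Set (E d)) : Measure (E d) :=
  (volume K)⁻¹ • volume.restrict K

/-- The quadratic transport cost `∫ |x - T x|^2 dρ(x)` of a map `T`. -/
noncomputable def cost {d : ℕ} (ρ : Measure (E d)) (T : E d → E d) : ℝ≥0∞ :=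
  ∫⁻ x, enorm (x - T x) ^ 2 ∂ρ

/-- `T` is a quadratic optimal transport map from `ρ` to `μ`: a Borel map with `T_# ρ = μ`
minimising the quadratic cost among all Borel maps `S` with `S_# ρ = μ`. -/
def IsOTMap {d : ℕ} (ρ μ : Measure (E d)) (T : E d → E d) : Prop :=
  Measurable T ∧ ρ.map T = μ ∧
    ∀ S : E d → E d, Measurable S → ρ.map S = μ → cost ρ T ≤ cost ρ S

/-- The quadratic Wasserstein distance
`W_2(μ, ν) = inf_π (∫ |y - z|^2 dπ(y, z))^(1/2)`, the infimum over couplings `π` of `μ, ν`. -/
noncomputable def W2 {d : ℕ} (μ ν : Measure (E d)) : ℝ≥0∞ :=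
  (⨅ π : {π : Measure (E d × E d) // π.map Prod.fst = μ ∧ π.map Prod.snd = ν},
    ∫⁻ p, enorm (p.1 - p.2) ^ 2 ∂π.1) ^ (1 / 2 : ℝ)

/-- `α` is admissible in dimension `d`: for every compact convex `K` with nonempty interior and
every nonempty compact `Y` there is a finite constant `C` with
`‖T_μ - T_ν‖_{L^2(ρ)} ≤ C * W_2(μ, ν)^α` for all Borel probability measures `μ, ν` carried by `Y`
and all quadratic optimal transport maps `T_μ, T_ν` from `ρ = unif K` to `μ, ν`. -/
def Admissible (d : ℕ) (α : ℝ) : Prop :=
  ∀ K : Set (E d), IsCompact K → Convex ℝ K → (interior K).Nonempty →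
    ∀ Y : Set (E d), IsCompact Y → Y.Nonempty →
      ∃ C : ℝ≥0, ∀ μ ν : Measure (E d), IsProbabilityMeasure μ → IsProbabilityMeasure ν →
        μ (Y)ᶜ = 0 → ν (Y)ᶜ = 0 →
          ∀ Tμ Tν : E d → E d, IsOTMap (unif K) μ Tμ → IsOTMap (unif K) ν Tν →
            eLpNorm (fun x => Tμ x - Tν x) 2 (unif K) ≤ (C : ℝ≥0∞) * W2 μ ν ^ α

/-- The critical exponent `α*_d`: the supremum of the admissible exponents in `(0, 1]`. -/
noncomputable def alphaStar (d : ℕ) : ℝ :=
  sSup {α : ℝ | 0 < α ∧ α ≤ 1 ∧ Admissible d α}

end Vale.Agent.Lib.P074
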