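import Vale.Agent.Lib.P074.DualDefs

open MeasureTheory Set
open scoped ENNReal NNReal BoundedContinuousFunction

namespace Vale.Agent.Lib.P074

variable {d : ℕ}

lemma conjY_bdd (Y : Set (E d)) (hY : IsCompact Y) (f : Y →ᵇ ℝ) (x : E d) :
    BddAbove (range fun y : Y => inner ℝ x (y : E d) - f y) := by
  have : CompactSpace Y := isCompact_iff_compactSpace.mp hY
  have : Continuous fun y : Y => inner ℝ x (y : E d) - f y := by fun_prop
  exact (isCompact_range this).bddAbove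

lemma le_conjY {Y : Set (E d)} (hY : IsCompact Y) (f : Y →ᵇ ℝ) (x : E d) (y : Y) :
    inner ℝ x (y : E d) - f y ≤ conjY Y f x :=
  le_ciSup (conjY_bdd Y hY f x) y

lemma conjY_le {Y : Set (E d)} (hYne : Y.Nonempty) (f : Y →ᵇ ℝ) (x : E d) (c : ℝ)
    (h : ∀ y : Y, inner ℝ x (y : E d) - f y ≤ c) : conjY Y f x ≤ c := by
  have : Nonempty Y := hYne.to_subtype
  exact ciSup_le h

lemma exists_conjY_eq {Y : Set (E d)} (hY : IsCompact Y) (hYne : Y.Nonempty) (f : Y →ᵇ ℝ) (x : E d) :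
    ∃ y : Y, conjY Y f x = inner ℝ x (y : E d) - f y := by
  have : CompactSpace Y := isCompact_iff_compactSpace.mp hY
  have : Nonempty Y := hYne.to_subtype
  have hc : Continuous fun y : Y => inner ℝ x (y : E d) - f y := by fun_prop
  obtain ⟨y, -, hy⟩ := isCompact_univ.exists_isMaxOn univ_nonempty hc.continuousOn
  refine ⟨y, le_antisymm (conjY_le hYne f x _ fun y' => hy (mem_univ y')) (le_conjY hY f x y)⟩

lemma conjY_le_add {Y : Set (E d)} (hY : IsCompact Y) (hYne : Y.Nonempty) {R : ℝ≥0}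
    (hYR : ∀ y ∈ Y, ‖y‖ ≤ R) (f : Y →ᵇ ℝ) (x x' : E d) :
    conjY Y f x ≤ conjY Y f x' + R * ‖x - x'‖ := by
  apply conjY_le hYne
  intro y
  have h1 := le_conjY hY f x' y
  have h2 : inner ℝ x (y : E d) - inner ℝ x' (y : E d) ≤ R * ‖x - x'‖ := by
    rw [← inner_sub_left]
    calc inner ℝ (x - x') (y : E d) ≤ ‖x - x'‖ * ‖(y : E d)‖ := real_inner_le_norm _ _
      _ ≤ ‖x - x'‖ * R := by gcongr; exact hYR y y.2
      _ = R * ‖x - x'‖ := mul_comm _ _
  linarith

lemma conjY_lipschitz {Y : Set (E d)} (hY : IsCompact Y) (hYne : Y.Nonempty) {R : ℝ≥0}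
    (hYR : ∀ y ∈ Y, ‖y‖ ≤ R) (f : Y →ᵇ ℝ) : LipschitzWith R (conjY Y f) := by
  apply LipschitzWith.of_dist_le_mul
  intro x x'
  rw [Real.dist_eq, dist_eq_norm, abs_le]
  have h1 := conjY_le_add hY hYne hYR f x x'
  have h2 := conjY_le_add hY hYne hYR f x' x
  rw [norm_sub_rev] at h2
  constructor <;> linarith

lemma conjY_convex {Y : Set (E d)} (hY : IsCompact Y) (hYne : Y.Nonempty) (f : Y →ᵇ ℝ) :
    ConvexOn ℝ univ (conjY Y f) := by
  refine ⟨convex_univ, ?_⟩
  intro x _ x' _ a b ha hb hab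
  apply conjY_le hYne
  intro y
  have h1 := le_conjY hY f x y
  have h2 := le_conjY hY f x' y
  rw [inner_add_left, inner_smul_left, inner_smul_left]
  simp only [conj_trivial, smul_eq_mul]
  have : f y = a * f y + b * f y := by rw [← add_mul, hab, one_mul]
  nlinarith

lemma conjY_le_conjY_add {Y : Set (E d)} (hY : IsCompact Y) (hYne : Y.Nonempty) (f g : Y →ᵇ ℝ)
    (x : E d) : conjY Y f x ≤ conjY Y g x + ‖f - g‖ := by
  apply conjY_le hYne
  intro y
  have h1 := le_conjY hY g x y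
  have h2 : g y - f y ≤ ‖f - g‖ := by
    have := (f - g).norm_coe_le_norm y
    rw [Real.norm_eq_abs, BoundedContinuousFunction.sub_apply, abs_sub_comm] at this
    exact (le_abs_self _).trans this
  linarith

lemma abs_conjY_sub_le {Y : Set (E d)} (hY : IsCompact Y) (hYne : Y.Nonempty) (f g : Y →ᵇ ℝ)
    (x : E d) : |conjY Y f x - conjY Y g x| ≤ ‖f - g‖ := by
  rw [abs_le]
  have h1 := conjY_le_conjY_add hY hYne f g x
  have h2 := conjY_le_conjY_add hY hYne g f x
  rw [norm_sub_rev] at h2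
  constructor <;> linarith

end Vale.Agent.Lib.P074
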