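import Vale.Agent.Lib.P074.Defs

/-!
# P074: the dual (Kantorovich) functional on `C(Y)`: definitions
-/

open MeasureTheory Set
open scoped ENNReal NNReal BoundedContinuousFunction

namespace Vale.Agent.Lib.P074

variable {d : ℕ}

/-- conjugate over `Y` of a bounded continuous function on the subtype `Y` -/
noncomputable def conjY (Y : Set (E d)) (f : Y →ᵇ ℝ) (x : E d) : ℝ :=
  ⨆ y : Y, (inner ℝ x (y : E d) - f y)

/-- the dual functional `J f = ∫ f^* dρ + ∫ f dμ` -/
noncomputable def dualJ (ρ μ : Measure (E d)) (Y : Set (E d)) (f : Y →ᵇ ℝ) : ℝ :=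
  ∫ x, conjY Y f x ∂ρ + ∫ y : Y, f y ∂(μ.comap Subtype.val)

end Vale.Agent.Lib.P074
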