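import Mathlib

/-!
# P074: Rockafellar's construction

A map `T` that is cyclically monotone on a nonempty set `L` and bounded by `R` there is, on `L`, a
selection of the subdifferential of a convex `R`-Lipschitz function defined on the whole space.
-/

open scoped RealInnerProductSpace NNReal

namespace Vale.Agent.Lib.P074

variable {F : Type*} [NormedAddCommGroup F] [InnerProductSpace ℝ F]

/-- The value at `z` of the chain `x0, x1, ..., xn` (the list is `[x1, ..., xn]`):
`<T x0, x1 - x0> + ... + <T x_{n-1}, xn - x_{n-1}> + <T xn, z - xn>`. -/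
noncomputable def chainVal (T : F → F) : F → List F → F → ℝ
  | x0, [], z => ⟪T x0, z - x0⟫
  | x0, x1 :: l, z => ⟪T x0, x1 - x0⟫ + chainVal T x1 l z

/-- Cyclical monotonicity of `T` on `L`, in chain form. -/
def CycMono (T : F → F) (L : Set F) : Prop :=
  ∀ x0 ∈ L, ∀ l : List F, (∀ x ∈ l, x ∈ L) → chainVal T x0 l x0 ≤ 0

lemma chainVal_sub_le (T : F → F) (L : Set F) (R : ℝ) (hR : ∀ x ∈ L, ‖T x‖ ≤ R) (z z' : F) :
    ∀ (l : List F) (x0 : F), x0 ∈ L → (∀ x ∈ l, x ∈ L) →
      chainVal T x0 l z ≤ chainVal T x0 l z' + R * ‖z - z'‖ := by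
  intro l
  induction l with
  | nil =>
    intro x0 hx0 _
    simp only [chainVal]
    have h1 : ⟪T x0, z - x0⟫ - ⟪T x0, z' - x0⟫ = ⟪T x0, z - z'⟫ := by
      rw [← inner_sub_right]; congr 1; abel
    have h2 : ⟪T x0, z - z'⟫ ≤ ‖T x0‖ * ‖z - z'‖ := real_inner_le_norm _ _
    have h3 : ‖T x0‖ * ‖z - z'‖ ≤ R * ‖z - z'‖ :=
      mul_le_mul_of_nonneg_right (hR x0 hx0) (norm_nonneg _)
    linarith
  | cons x1 l ih =>
    intro x0 _ hl
    simp only [chainVal]
    have := ih x1 (hl x1 (by simp)) (fun x hx => hl x (by simp [hx]))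
    linarith

lemma chainVal_affine (T : F → F) (z z' : F) (a b : ℝ) (hab : a + b = 1) :
    ∀ (l : List F) (x0 : F),
      chainVal T x0 l (a • z + b • z') = a * chainVal T x0 l z + b * chainVal T x0 l z' := by
  intro l
  induction l with
  | nil =>
    intro x0
    simp only [chainVal]
    have : a • z + b • z' - x0 = a • (z - x0) + b • (z' - x0) := by
      rw [smul_sub, smul_sub]
      have : x0 = a • x0 + b • x0 := by rw [← add_smul, hab, one_smul]
      nth_rewrite 1 [this]
      abel
    rw [this, inner_add_right, inner_smul_right, inner_smul_right]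
  | cons x1 l ih =>
    intro x0
    simp only [chainVal]
    rw [ih x1]
    have : ⟪T x0, x1 - x0⟫ = (a + b) * ⟪T x0, x1 - x0⟫ := by rw [hab, one_mul]
    nth_rewrite 1 [this]
    ring

lemma chainVal_append (T : F → F) (x z : F) :
    ∀ (l : List F) (x0 : F),
      chainVal T x0 (l ++ [x]) z = chainVal T x0 l x + ⟪T x, z - x⟫ := by
  intro l
  induction l with
  | nil => intro x0; simp [chainVal]
  | cons x1 l ih =>
    intro x0
    simp only [List.cons_append, chainVal]
    rw [ih x1]
    ring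

/-- **Rockafellar.** -/
theorem exists_potential_of_cycMono (T : F → F) (L : Set F) (hL : L.Nonempty) (R : ℝ≥0)
    (hR : ∀ x ∈ L, ‖T x‖ ≤ R) (hcm : CycMono T L) :
    ∃ φ : F → ℝ, ConvexOn ℝ Set.univ φ ∧ LipschitzWith R φ ∧
      ∀ x ∈ L, ∀ z, φ x + ⟪T x, z - x⟫ ≤ φ z := by
  obtain ⟨x0, hx0⟩ := hL
  let ι := {l : List F // ∀ x ∈ l, x ∈ L}
  have : Nonempty ι := ⟨⟨[], by simp⟩⟩
  set φ : F → ℝ := fun z => ⨆ l : ι, chainVal T x0 l.1 z with hφ
  have hbdd : ∀ z, BddAbove (Set.range fun l : ι => chainVal T x0 l.1 z) := by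
    intro z
    refine ⟨R * ‖z - x0‖, ?_⟩
    rintro _ ⟨l, rfl⟩
    have h1 := chainVal_sub_le T L R hR z x0 l.1 x0 hx0 l.2
    have h2 := hcm x0 hx0 l.1 l.2
    simp only
    linarith
  refine ⟨φ, ⟨convex_univ, ?_⟩, ?_, ?_⟩
  · intro z _ z' _ a b ha hb hab
    simp only [hφ, smul_eq_mul]
    apply ciSup_le
    intro l
    rw [chainVal_affine T z z' a b hab]
    exact add_le_add (mul_le_mul_of_nonneg_left (le_ciSup (hbdd z) l) ha)
      (mul_le_mul_of_nonneg_left (le_ciSup (hbdd z') l) hb)
  · apply LipschitzWith.of_le_add_mul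
    intro z z'
    simp only [hφ]
    apply ciSup_le
    intro l
    have h1 := chainVal_sub_le T L R hR z z' l.1 x0 hx0 l.2
    have h2 := le_ciSup (hbdd z') l
    rw [dist_eq_norm]
    linarith
  · intro x hx z
    simp only [hφ]
    rw [← le_sub_iff_add_le]
    apply ciSup_le
    intro l
    rw [le_sub_iff_add_le, ← chainVal_append]
    exact le_ciSup (hbdd z) (⟨l.1 ++ [x], by
      intro y hy
      rcases List.mem_append.mp hy with h | h
      · exact l.2 y h
      · simp at h; rw [h]; exact hx⟩ : ι)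


lemma chainVal_eq_sum (T : F → F) (z : F) :
    ∀ (l : List F) (x0 : F),
      chainVal T x0 l z = ∑ j : Fin (l.length + 1),
        ⟪T ((x0 :: l)[j.1]'(by simp; omega)), (l ++ [z])[j.1]'(by simp; omega) - (x0 :: l)[j.1]'(by simp; omega)⟫ := by
  intro l
  induction l with
  | nil => intro x0; simp [chainVal]
  | cons x1 l ih =>
    intro x0
    simp only [chainVal]
    rw [ih x1]
    simp only [List.length_cons]
    rw [Fin.sum_univ_succ (n := l.length + 1)]
    simp

/-- Cyclical monotonicity in the form of cyclic sums over `Fin (n+1)`. -/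
def CycMonoFin (T : F → F) (L : Set F) : Prop :=
  ∀ (n : ℕ) (p : Fin (n + 1) → F), (∀ j, p j ∈ L) → ∑ j, ⟪T (p j), p (j + 1) - p j⟫ ≤ 0

lemma cycMono_of_fin (T : F → F) (L : Set F) (h : CycMonoFin T L) : CycMono T L := by
  intro x0 hx0 l hl
  rw [chainVal_eq_sum]
  have := h l.length (fun j => (x0 :: l)[j.1]'(by simp; omega)) (by
    intro j
    have : (x0 :: l)[j.1]'(by simp; omega) ∈ (x0 :: l) := List.getElem_mem _
    rcases List.mem_cons.mp this with h | h
    · rw [h]; exact hx0
    · exact hl _ h)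
  refine le_trans (le_of_eq ?_) this
  apply Finset.sum_congr rfl
  intro j _
  congr 2
  by_cases hj : j.1 < l.length
  · have h1 : (j + 1 : Fin (l.length + 1)).1 = j.1 + 1 := by
      rw [Fin.val_add_one_of_lt]
      exact Fin.lt_def.mpr (by simpa using hj)
    simp only [h1]
    rw [List.getElem_append_left hj]
    simp
  · have hj' : j.1 = l.length := by omega
    have h1 : j = Fin.last l.length := Fin.ext hj'
    subst h1
    simp

end Vale.Agent.Lib.P074
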