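import Vale.Agent.Lib.P074.H8Swap
import Vale.Agent.Lib.P074.H8Rockafellar

open MeasureTheory Set Metric Filter Topology
open scoped ENNReal NNReal RealInnerProductSpace

namespace Vale.Agent.Lib.P074

variable {d : ℕ}

/-- Lebesgue point property with moving centres. -/
def LebPt (T : E d → E d) (x : E d) : Prop :=
  ∀ (Kc : ℕ) (w : ℝ → E d) (δ : ℝ → ℝ), Tendsto δ (𝓝[>] 0) (𝓝[>] 0) →
    (∀ᶠ r in 𝓝[>] (0 : ℝ), x ∈ closedBall (w r) (Kc * δ r)) →
    Tendsto (fun r => ⨍ y in closedBall (w r) (δ r), T y) (𝓝[>] 0) (𝓝 (T x))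

lemma ae_lebPt (T : E d → E d) (hTm : Measurable T) (R : ℝ) (hTR : ∀ x, ‖T x‖ ≤ R) :
    ∀ᵐ x, LebPt T x := by
  have hloc : LocallyIntegrable T volume :=
    (locallyIntegrable_const R).mono hTm.aestronglyMeasurable
      (Eventually.of_forall fun x => (hTR x).trans (le_abs_self R))
  unfold LebPt
  rw [ae_all_iff]
  intro Kc
  filter_upwards [IsUnifLocDoublingMeasure.ae_tendsto_average volume hloc (Kc : ℝ)] with x hx w δ h1 h2
  exact hx w δ h1 h2

lemma cycMonoFin_of_opt (K : Set (E d)) (hK : IsCompact K) (T : E d → E d) (hTm : Measurable T)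
    (R : ℝ) (hTR : ∀ x, ‖T x‖ ≤ R)
    (hopt : ∀ S : E d → E d, Measurable S → (unif K).map S = (unif K).map T →
      cost (unif K) T ≤ cost (unif K) S) (u : E d) (hu : ‖u‖ = 1) :
    CycMonoFin T {x | x ∈ interior K ∧ LebPt T x} := by
  intro n p hp
  set w : ℝ → Fin (n + 1) → E d := fun r j => p j + (r * (j : ℕ)) • u with hw
  have hwc : ∀ j, Continuous (fun r => w r j) := by
    intro j
    simp only [hw]
    fun_prop
  have hw0 : ∀ j, w 0 j = p j := by
    intro j
    simp [hw]
  have hpos : ∀ᶠ r in 𝓝[>] (0 : ℝ), 0 < r := self_mem_nhdsWithin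
  have H4 : ∀ j, Tendsto (fun r => w r j) (𝓝[>] 0) (𝓝 (p j)) := by
    intro j
    have := (hwc j).tendsto 0
    rw [hw0] at this
    exact this.mono_left nhdsWithin_le_nhds
  have H1 : ∀ᶠ r in 𝓝[>] (0 : ℝ),
      Pairwise (fun i j => Disjoint (closedBall (w r i) (r / 3)) (closedBall (w r j) (r / 3))) := by
    unfold Pairwise
    rw [eventually_all]
    intro i
    rw [eventually_all]
    intro j
    by_cases hij : i = j
    · exact Eventually.of_forall fun r h => absurd hij h
    by_cases hpp : p i = p j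
    · filter_upwards [hpos] with r hr _
      apply closedBall_disjoint_closedBall
      simp only [hw, hpp, dist_eq_norm]
      have e : p j + (r * ((i : ℕ) : ℝ)) • u - (p j + (r * ((j : ℕ) : ℝ)) • u)
          = (r * (((i : ℕ) : ℝ) - ((j : ℕ) : ℝ))) • u := by
        rw [mul_sub, sub_smul]; abel
      rw [e, norm_smul, hu, mul_one, Real.norm_eq_abs, abs_mul, abs_of_pos hr]
      have h1 : (1 : ℝ) ≤ |((i : ℕ) : ℝ) - ((j : ℕ) : ℝ)| := by
        have hne : ((i : ℕ) : ℤ) - ((j : ℕ) : ℤ) ≠ 0 := by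
          intro h
          apply hij
          apply Fin.ext
          omega
        have := Int.one_le_abs hne
        have h2 : ((|((i : ℕ) : ℤ) - ((j : ℕ) : ℤ)| : ℤ) : ℝ) = |((i : ℕ) : ℝ) - ((j : ℕ) : ℝ)| := by
          push_cast; rfl
        rw [← h2]
        exact_mod_cast this
      nlinarith
    · have hc : Continuous (fun r : ℝ => dist (w r i) (w r j) - (r / 3 + r / 3)) :=
        ((hwc i).dist (hwc j)).sub (by fun_prop)
      have h0 : 0 < dist (w 0 i) (w 0 j) - ((0 : ℝ) / 3 + 0 / 3) := by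
        rw [hw0, hw0]
        simpa using hpp
      have := (hc.tendsto 0).eventually (lt_mem_nhds h0)
      filter_upwards [this.filter_mono nhdsWithin_le_nhds] with r hr _
      apply closedBall_disjoint_closedBall
      linarith
  have H2 : ∀ᶠ r in 𝓝[>] (0 : ℝ), ∀ k, closedBall (w r k) (r / 3) ⊆ K := by
    rw [eventually_all]
    intro k
    obtain ⟨ε, hε, hεK⟩ := Metric.mem_nhds_iff.mp (mem_interior_iff_mem_nhds.mp (hp k).1)
    have hc : Continuous (fun r : ℝ => r / 3 + dist (w r k) (p k)) :=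
      (by fun_prop : Continuous fun r : ℝ => r / 3).add ((hwc k).dist continuous_const)
    have h0 : (0 : ℝ) / 3 + dist (w 0 k) (p k) < ε := by
      rw [hw0]; simpa using hε
    have := (hc.tendsto 0).eventually (gt_mem_nhds h0)
    filter_upwards [this.filter_mono nhdsWithin_le_nhds] with r hr
    exact (closedBall_subset_ball' hr).trans hεK
  have hδ : Tendsto (fun r : ℝ => r / 3) (𝓝[>] 0) (𝓝[>] 0) := by
    rw [tendsto_nhdsWithin_iff]
    constructor
    · have : Tendsto (fun r : ℝ => r / 3) (𝓝 0) (𝓝 (0 / 3)) :=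
        (by fun_prop : Continuous fun r : ℝ => r / 3).tendsto 0
      rw [zero_div] at this
      exact this.mono_left nhdsWithin_le_nhds
    · filter_upwards [hpos] with r hr
      exact div_pos hr (by norm_num)
  have H3 : ∀ j, Tendsto (fun r => ⨍ y in closedBall (w r j) (r / 3), T y) (𝓝[>] 0)
      (𝓝 (T (p j))) := by
    intro j
    apply (hp j).2 (3 * (j : ℕ)) (fun r => w r j) (fun r => r / 3) hδ
    filter_upwards [hpos] with r hr
    rw [mem_closedBall, dist_eq_norm]
    simp only [hw]
    rw [sub_add_cancel_left, norm_neg, norm_smul, hu, mul_one, Real.norm_eq_abs,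
      abs_of_nonneg (by positivity)]
    push_cast
    apply le_of_eq
    ring
  have H5 : Tendsto (fun r => ∑ j, ⟪w r (j + 1) - w r j, ⨍ y in closedBall (w r j) (r / 3), T y⟫)
      (𝓝[>] 0) (𝓝 (∑ j, ⟪p (j + 1) - p j, T (p j)⟫)) := by
    apply tendsto_finsetSum
    intro j _
    exact ((H4 (j + 1)).sub (H4 j)).inner (H3 j)
  have H6 : ∑ j, ⟪p (j + 1) - p j, T (p j)⟫ ≤ 0 := by
    apply le_of_tendsto H5
    filter_upwards [hpos, H1, H2] with r hr h1 h2
    exact swap_ineq K hK T hTm R hTR hopt (w r) (r / 3) (by positivity) h1 h2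
  refine le_trans (le_of_eq ?_) H6
  exact Finset.sum_congr rfl fun j _ => real_inner_comm _ _

lemma ae_unif_of_ae (K : Set (E d)) {p : E d → Prop} (h : ∀ᵐ x, p x) :
    ∀ᵐ x ∂(unif K), p x := by
  unfold unif
  exact Measure.ae_smul_measure (ae_restrict_of_ae h) _

/-- **Brenier potential.** An optimal transport map from the uniform measure on a convex body to a
probability measure carried by a compact set `Y` inside the ball of radius `R` is, almost
everywhere, a selection of the subdifferential of a convex `R`-Lipschitz function on the whole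
space. -/
theorem exists_potential {d : ℕ} (K Y : Set (E d)) (hK : IsCompact K) (hKc : Convex ℝ K)
    (_hKi : (interior K).Nonempty) (hY : IsCompact Y) (_hYne : Y.Nonempty) (R : ℝ≥0)
    (hYR : ∀ y ∈ Y, ‖y‖ ≤ R) (μ : Measure (E d)) (_hμp : IsProbabilityMeasure μ)
    (hμ : μ (Y)ᶜ = 0) (T : E d → E d) (hT : IsOTMap (unif K) μ T) :
    ∃ φ : E d → ℝ, ConvexOn ℝ Set.univ φ ∧ LipschitzWith R φ ∧
      ∀ᵐ x ∂(unif K), ∀ z, φ x + inner ℝ (T x) (z - x) ≤ φ z := by
  obtain ⟨hTm, hTμ, hTopt⟩ := hT
  rcases subsingleton_or_nontrivial (E d) with hs | hn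
  · refine ⟨fun _ => 0, convexOn_const 0 convex_univ, LipschitzWith.const' 0, ?_⟩
    filter_upwards with x z
    rw [Subsingleton.elim z x]
    simp
  obtain ⟨u, hu⟩ := exists_norm_eq (E d) zero_le_one
  set T' : E d → E d := fun x => if ‖T x‖ ≤ R then T x else 0 with hT'
  have hT'm : Measurable T' :=
    Measurable.ite (measurableSet_le hTm.norm measurable_const) hTm measurable_const
  have hT'R : ∀ x, ‖T' x‖ ≤ R := by
    intro x
    simp only [hT']
    split_ifs with h
    · exact h
    · simp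
  have hae : ∀ᵐ x ∂(unif K), T' x = T x := by
    have h1 : ∀ᵐ x ∂(unif K), T x ∈ Y := by
      have : (unif K) (T ⁻¹' Yᶜ) = 0 := by
        rw [← Measure.map_apply hTm hY.measurableSet.compl, hTμ, hμ]
      filter_upwards [measure_eq_zero_iff_ae_notMem.mp this] with x hx
      simpa using hx
    filter_upwards [h1] with x hx
    simp only [hT']
    rw [if_pos (hYR _ hx)]
  have hmap : (unif K).map T' = μ := by
    rw [← hTμ]
    exact Measure.map_congr hae
  have hcost : cost (unif K) T' = cost (unif K) T := by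
    unfold cost
    apply lintegral_congr_ae
    filter_upwards [hae] with x hx
    rw [hx]
  have hopt : ∀ S : E d → E d, Measurable S → (unif K).map S = (unif K).map T' →
      cost (unif K) T' ≤ cost (unif K) S := by
    intro S hS hSm
    rw [hcost]
    exact hTopt S hS (hSm.trans hmap)
  have hcm := cycMonoFin_of_opt K hK T' hT'm R hT'R hopt u hu
  have hLae : ∀ᵐ x ∂(unif K), x ∈ {x | x ∈ interior K ∧ LebPt T' x} := by
    have h1 : ∀ᵐ x ∂(unif K), x ∉ frontier K :=
      ae_unif_of_ae K (measure_eq_zero_iff_ae_notMem.mp (hKc.addHaar_frontier volume))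
    filter_upwards [h1, ae_unif_mem K hK.measurableSet, ae_unif_of_ae K (ae_lebPt T' hT'm R hT'R)]
      with x hx1 hx2 hx3
    refine ⟨?_, hx3⟩
    by_contra h
    exact hx1 ⟨subset_closure hx2, h⟩
  by_cases hL : {x | x ∈ interior K ∧ LebPt T' x}.Nonempty
  · obtain ⟨φ, h1, h2, h3⟩ := exists_potential_of_cycMono T' _ hL R (fun x _ => hT'R x)
      (cycMono_of_fin T' _ hcm)
    refine ⟨φ, h1, h2, ?_⟩
    filter_upwards [hLae, hae] with x hx hx' z
    rw [← hx']
    exact h3 x hx z
  · refine ⟨fun _ => 0, convexOn_const 0 convex_univ, LipschitzWith.const' 0, ?_⟩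
    filter_upwards [hLae] with x hx
    exact absurd ⟨x, hx⟩ hL

end Vale.Agent.Lib.P074
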