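import Vale.Agent.Lib.P074.Defs

open MeasureTheory Set Metric
open scoped ENNReal NNReal

namespace Vale.Agent.Lib.P074

variable {d : ℕ} {n : ℕ}

/-- displacement of the forward cyclic shift of the balls -/
noncomputable def shiftDisp (w : Fin (n + 1) → E d) (δ : ℝ) (x : E d) : E d :=
  ∑ j, (closedBall (w j) δ).indicator (fun _ => w (j + 1) - w j) x

/-- displacement of the backward cyclic shift of the balls -/
noncomputable def shiftDispInv (w : Fin (n + 1) → E d) (δ : ℝ) (x : E d) : E d :=
  ∑ j, (closedBall (w (j + 1)) δ).indicator (fun _ => w (j + 1) - w j) x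

lemma measurable_shiftDisp (w : Fin (n + 1) → E d) (δ : ℝ) : Measurable (shiftDisp w δ) := by
  unfold shiftDisp
  apply Finset.measurable_sum
  intro j _
  exact measurable_const.indicator measurableSet_closedBall

lemma measurable_shiftDispInv (w : Fin (n + 1) → E d) (δ : ℝ) : Measurable (shiftDispInv w δ) := by
  unfold shiftDispInv
  apply Finset.measurable_sum
  intro j _
  exact measurable_const.indicator measurableSet_closedBall

variable (w : Fin (n + 1) → E d) (δ : ℝ)
  (hdisj : Pairwise (fun i j => Disjoint (closedBall (w i) δ) (closedBall (w j) δ)))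

include hdisj in
lemma shiftDisp_of_mem {x : E d} {j : Fin (n + 1)} (hx : x ∈ closedBall (w j) δ) :
    shiftDisp w δ x = w (j + 1) - w j := by
  unfold shiftDisp
  rw [Finset.sum_eq_single j]
  · exact indicator_of_mem hx _
  · intro i _ hij
    apply indicator_of_notMem
    intro hxi
    exact (disjoint_left.mp (hdisj hij) hxi) hx
  · intro h; exact absurd (Finset.mem_univ j) h

lemma shiftDisp_of_notMem {x : E d} (hx : ∀ j, x ∉ closedBall (w j) δ) :
    shiftDisp w δ x = 0 := by
  unfold shiftDisp
  apply Finset.sum_eq_zero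
  intro j _
  exact indicator_of_notMem (hx j) _

include hdisj in
lemma shiftDispInv_of_mem {x : E d} {j : Fin (n + 1)} (hx : x ∈ closedBall (w (j + 1)) δ) :
    shiftDispInv w δ x = w (j + 1) - w j := by
  unfold shiftDispInv
  rw [Finset.sum_eq_single j]
  · exact indicator_of_mem hx _
  · intro i _ hij
    apply indicator_of_notMem
    intro hxi
    have : i + 1 ≠ j + 1 := fun h => hij (add_right_cancel h)
    exact (disjoint_left.mp (hdisj this) hxi) hx
  · intro h; exact absurd (Finset.mem_univ j) h

lemma shiftDispInv_of_notMem {x : E d} (hx : ∀ j, x ∉ closedBall (w j) δ) :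
    shiftDispInv w δ x = 0 := by
  unfold shiftDispInv
  apply Finset.sum_eq_zero
  intro j _
  exact indicator_of_notMem (hx (j + 1)) _

lemma sub_mem_closedBall {x : E d} {j : Fin (n + 1)} :
    x - (w (j + 1) - w j) ∈ closedBall (w j) δ ↔ x ∈ closedBall (w (j + 1)) δ := by
  simp only [mem_closedBall, dist_eq_norm]
  have : x - (w (j + 1) - w j) - w j = x - w (j + 1) := by abel
  rw [this]

include hdisj in
/-- the forward shift undoes the backward shift -/
lemma shift_leftInverse (x : E d) :
    (x - shiftDispInv w δ x) + shiftDisp w δ (x - shiftDispInv w δ x) = x := by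
  by_cases hx : ∃ k, x ∈ closedBall (w k) δ
  · obtain ⟨k, hk⟩ := hx
    obtain ⟨j, rfl⟩ : ∃ j, k = j + 1 := ⟨k - 1, by simp⟩
    rw [shiftDispInv_of_mem w δ hdisj hk,
      shiftDisp_of_mem w δ hdisj ((sub_mem_closedBall w δ).mpr hk)]
    abel
  · push Not at hx
    rw [shiftDispInv_of_notMem w δ hx, sub_zero, shiftDisp_of_notMem w δ hx, add_zero]

end Vale.Agent.Lib.P074
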