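import Vale.Agent.Lib.P074.Cap

/-!
# P074: almost-everywhere uniqueness of the optimal map for a two-atom target

The equality case of the bathtub principle: every quadratic optimal transport map from a
probability measure `ρ` (with finite second moment) to the law of a cap map
`{c < <x,y>} -> y`, rest `-> 0`, agrees `ρ`-almost everywhere with that cap map.
-/

open MeasureTheory Set
open scoped ENNReal NNReal

namespace Vale.Agent.Lib.P074

section Bathtub

variable {α : Type*} [MeasurableSpace α]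

/-- Equality case of the bathtub principle for the strict superlevel set `{c < l}`. -/
lemma bathtub_strict (ρ : Measure α) [IsFiniteMeasure ρ] (l : α → ℝ) (hl : Integrable l ρ)
    (hlm : Measurable l) (c : ℝ) (S2 : Set α) (hS2 : MeasurableSet S2)
    (hm : ρ S2 = ρ {x | c < l x})
    (hle : ∫ x in {x | c < l x}, l x ∂ρ ≤ ∫ x in S2, l x ∂ρ) :
    ρ (S2 \ {x | c < l x}) = 0 ∧ ρ ({x | c < l x} \ S2) = 0 := by
  set S : Set α := {x | c < l x} with hS
  have hSm : MeasurableSet S := measurableSet_lt measurable_const hlm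
  have h1 : ∫ x in S, l x ∂ρ = ∫ x in S ∩ S2, l x ∂ρ + ∫ x in S \ S2, l x ∂ρ :=
    (integral_inter_add_sdiff hS2 hl.integrableOn).symm
  have h2 : ∫ x in S2, l x ∂ρ = ∫ x in S2 ∩ S, l x ∂ρ + ∫ x in S2 \ S, l x ∂ρ :=
    (integral_inter_add_sdiff hSm hl.integrableOn).symm
  have hic : ∀ A : Set α, IntegrableOn (fun _ => c) A ρ :=
    fun A => integrableOn_const (by finiteness)
  have h3' : ∫ x in S \ S2, (l x - c) ∂ρ = ∫ x in S \ S2, l x ∂ρ - c * (ρ (S \ S2)).toReal := by
    rw [integral_sub hl.integrableOn (hic _)]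
    simp [Measure.real, mul_comm]
  have h3nn : 0 ≤ᵐ[ρ.restrict (S \ S2)] fun x => l x - c := by
    filter_upwards [ae_restrict_mem (hSm.diff hS2)] with x hx
    have : c < l x := hx.1
    simp only [Pi.zero_apply]
    linarith
  have h3 : 0 ≤ ∫ x in S \ S2, (l x - c) ∂ρ := integral_nonneg_of_ae h3nn
  have h4 : ∫ x in S2 \ S, l x ∂ρ ≤ c * (ρ (S2 \ S)).toReal := by
    have : ∫ x in S2 \ S, l x ∂ρ ≤ ∫ x in S2 \ S, c ∂ρ := by
      apply setIntegral_mono_on hl.integrableOn (hic _) (hS2.diff hSm)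
      intro x hx
      have : ¬ (c < l x) := hx.2
      linarith
    simpa [Measure.real, mul_comm] using this
  have h5e : ρ (S \ S2) = ρ (S2 \ S) := by
    have a1 : ρ (S ∩ S2) + ρ (S \ S2) = ρ S := measure_inter_add_sdiff S hS2
    have a2 : ρ (S2 ∩ S) + ρ (S2 \ S) = ρ S2 := measure_inter_add_sdiff S2 hSm
    rw [inter_comm] at a2
    rw [hm, ← a1] at a2
    exact ((ENNReal.add_right_inj (measure_ne_top ρ _)).mp a2).symm
  have h5 : (ρ (S \ S2)).toReal = (ρ (S2 \ S)).toReal := by rw [h5e]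
  rw [inter_comm S2 S] at h2
  have h6 : ∫ x in S \ S2, (l x - c) ∂ρ = 0 := by
    rw [h5] at h3'
    linarith
  have h7 : ρ (S \ S2) = 0 := by
    by_contra hne
    have hpos : 0 < ρ (S \ S2) := pos_iff_ne_zero.mpr hne
    have : 0 < ∫ x in S \ S2, (l x - c) ∂ρ := by
      rw [setIntegral_pos_iff_support_of_nonneg_ae h3nn (hl.integrableOn.sub (hic _))]
      refine lt_of_lt_of_le hpos (measure_mono ?_)
      intro x hx
      refine ⟨?_, hx⟩
      have : c < l x := hx.1
      simp only [Function.mem_support]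
      intro h0
      linarith
    linarith
  exact ⟨by rw [← h5e, h7], h7⟩

end Bathtub

variable {d : ℕ}

/-- A Borel map pushing `ρ` to the law of a cap map is itself a cap map, almost everywhere. -/
lemma ae_eq_capMap_of_map_eq (ρ : Measure (E d)) (T : E d → E d) (hT : Measurable T)
    {A : Set (E d)} (hA : MeasurableSet A) (y : E d) (hy : y ≠ 0)
    (hmap : ρ.map T = ρ.map (capMap A y)) :
    ρ (T ⁻¹' {y}) = ρ A ∧ T =ᵐ[ρ] capMap (T ⁻¹' {y}) y := by
  classical
  rw [map_capMap ρ hA y] at hmap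
  constructor
  · rw [← Measure.map_apply hT (measurableSet_singleton y), hmap]
    simp [hy.symm]
  · have h0 : ρ (T ⁻¹' ({0, y} : Set (E d))ᶜ) = 0 := by
      rw [← Measure.map_apply hT (by measurability), hmap]
      simp
    rw [Filter.EventuallyEq, ae_iff]
    refine measure_mono_null ?_ h0
    intro x hx
    simp only [mem_ofPred_eq] at hx
    simp only [mem_preimage, mem_compl_iff, mem_insert_iff, mem_singleton_iff, not_or]
    by_cases hxy : T x = y
    · exfalso
      apply hx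
      simp [capMap, hxy]
    · refine ⟨?_, hxy⟩
      intro hx0
      apply hx
      rw [hx0, capMap, Set.indicator_of_notMem]
      simpa using hxy

lemma norm_sub_capMap_sq (S : Set (E d)) (y x : E d) :
    ‖x - capMap S y x‖ ^ 2 = ‖x‖ ^ 2 + S.indicator (fun x => ‖y‖ ^ 2 - 2 * inner ℝ x y) x := by
  classical
  by_cases hx : x ∈ S
  · simp only [capMap, Set.indicator_of_mem hx]
    rw [norm_sub_sq_real]
    ring
  · simp [capMap, Set.indicator_of_notMem hx]

lemma integrable_norm_sub_capMap_sq (ρ : Measure (E d)) [IsFiniteMeasure ρ] {S : Set (E d)}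
    (hS : MeasurableSet S) (y : E d)
    (h2 : Integrable (fun x : E d => ‖x‖ ^ 2) ρ) (h1 : Integrable (fun x : E d => inner ℝ x y) ρ) :
    Integrable (fun x => ‖x - capMap S y x‖ ^ 2) ρ := by
  simp_rw [norm_sub_capMap_sq]
  exact h2.add (((integrable_const _).sub (h1.const_mul 2)).indicator hS)

lemma integral_norm_sub_capMap_sq (ρ : Measure (E d)) [IsFiniteMeasure ρ] {S : Set (E d)}
    (hS : MeasurableSet S) (y : E d)
    (h2 : Integrable (fun x : E d => ‖x‖ ^ 2) ρ) (h1 : Integrable (fun x : E d => inner ℝ x y) ρ) :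
    ∫ x, ‖x - capMap S y x‖ ^ 2 ∂ρ
      = ∫ x, ‖x‖ ^ 2 ∂ρ + ((ρ S).toReal * ‖y‖ ^ 2 - 2 * ∫ x in S, inner ℝ x y ∂ρ) := by
  simp_rw [norm_sub_capMap_sq]
  have hi : Integrable (fun x : E d => ‖y‖ ^ 2 - 2 * inner ℝ x y) ρ :=
    (integrable_const _).sub (h1.const_mul 2)
  have e1 : ∫ x, (‖x‖ ^ 2 + S.indicator (fun x => ‖y‖ ^ 2 - 2 * inner ℝ x y) x) ∂ρ
      = ∫ x, ‖x‖ ^ 2 ∂ρ + ∫ x, S.indicator (fun x => ‖y‖ ^ 2 - 2 * inner ℝ x y) x ∂ρ :=
    integral_add h2 (hi.indicator hS)
  have e2 : ∫ x in S, (‖y‖ ^ 2 - 2 * inner ℝ x y) ∂ρ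
      = ∫ _x in S, ‖y‖ ^ 2 ∂ρ - ∫ x in S, 2 * inner ℝ x y ∂ρ :=
    integral_sub (integrable_const _) (h1.const_mul 2).integrableOn
  rw [e1, integral_indicator hS, e2, integral_const_mul]
  simp [Measure.real]

lemma cost_capMap (ρ : Measure (E d)) [IsFiniteMeasure ρ] {S : Set (E d)}
    (hS : MeasurableSet S) (y : E d)
    (h2 : Integrable (fun x : E d => ‖x‖ ^ 2) ρ) (h1 : Integrable (fun x : E d => inner ℝ x y) ρ) :
    cost ρ (capMap S y) = ENNReal.ofReal (∫ x, ‖x - capMap S y x‖ ^ 2 ∂ρ) := by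
  unfold cost
  simp_rw [enorm_sq_eq]
  rw [ofReal_integral_eq_lintegral_ofReal (integrable_norm_sub_capMap_sq ρ hS y h2 h1)]
  exact Filter.Eventually.of_forall (fun x => by positivity)

lemma cost_congr (ρ : Measure (E d)) {T T' : E d → E d} (h : T =ᵐ[ρ] T') :
    cost ρ T = cost ρ T' := by
  unfold cost
  apply lintegral_congr_ae
  filter_upwards [h] with x hx
  rw [hx]

lemma capMap_ae_eq (ρ : Measure (E d)) {S S2 : Set (E d)} (y : E d)
    (h1 : ρ (S2 \ S) = 0) (h2 : ρ (S \ S2) = 0) : capMap S2 y =ᵐ[ρ] capMap S y := by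
  classical
  rw [Filter.EventuallyEq, ae_iff]
  refine measure_mono_null ?_ (measure_union_null h1 h2)
  intro x hx
  simp only [mem_ofPred_eq] at hx
  by_cases a : x ∈ S <;> by_cases b : x ∈ S2
  · exact absurd (by simp [capMap, a, b]) hx
  · right; exact ⟨a, b⟩
  · left; exact ⟨b, a⟩
  · exact absurd (by simp [capMap, a, b]) hx

/-- **Uniqueness.** Every optimal map to the law of the cap map `{c < <x,y>} -> y` agrees with
that cap map almost everywhere. -/
theorem isOTMap_ae_eq_capMap (ρ : Measure (E d)) [IsFiniteMeasure ρ] (y : E d) (hy : y ≠ 0)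
    (h2 : Integrable (fun x : E d => ‖x‖ ^ 2) ρ) (h1 : Integrable (fun x : E d => inner ℝ x y) ρ)
    (c : ℝ) (T : E d → E d)
    (hT : IsOTMap ρ (ρ.map (capMap {x : E d | c < inner ℝ x y} y)) T) :
    T =ᵐ[ρ] capMap {x : E d | c < inner ℝ x y} y := by
  set S : Set (E d) := {x : E d | c < inner ℝ x y} with hSdef
  have hlm : Measurable (fun x : E d => inner ℝ x y) := measurable_id.inner measurable_const
  have hS : MeasurableSet S := halfspace_measurable y c
  obtain ⟨hTm, hmap, hopt⟩ := hT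
  obtain ⟨hmS2, hae⟩ := ae_eq_capMap_of_map_eq ρ T hTm hS y hy hmap
  set S2 : Set (E d) := T ⁻¹' {y} with hS2def
  have hS2 : MeasurableSet S2 := hTm (measurableSet_singleton y)
  have hle := hopt (capMap S y) (measurable_capMap hS y) rfl
  rw [cost_congr ρ hae, cost_capMap ρ hS y h2 h1, cost_capMap ρ hS2 y h2 h1] at hle
  have hnn : 0 ≤ ∫ x, ‖x - capMap S y x‖ ^ 2 ∂ρ := integral_nonneg (fun x => by positivity)
  rw [ENNReal.ofReal_le_ofReal_iff hnn, integral_norm_sub_capMap_sq ρ hS y h2 h1,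
    integral_norm_sub_capMap_sq ρ hS2 y h2 h1, hmS2] at hle
  obtain ⟨z1, z2⟩ := bathtub_strict ρ (fun x : E d => inner ℝ x y) h1 hlm c S2 hS2 hmS2
    (by linarith)
  exact hae.trans (capMap_ae_eq ρ y z1 z2)

end Vale.Agent.Lib.P074
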