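import Vale.Agent.Lib.P074.CubePair
import Vale.Agent.Lib.P074.H8Unique

/-!
# P074: the cube pair, strong form

Same pair of two-atom targets as in `cube_pair`, but the lower bound on the `L^2` distance is
proved for EVERY pair of optimal maps (by almost-everywhere uniqueness).
-/

open MeasureTheory Set
open scoped ENNReal NNReal

namespace Vale.Agent.Lib.P074

variable {d : ℕ}

lemma integrable_sq_cube : Integrable (fun x : E d => ‖x‖ ^ 2) (volume.restrict (cube d)) := by
  have : ContinuousOn (fun x : E d => ‖x‖ ^ 2) (cube d) := by fun_prop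
  exact this.integrableOn_compact isCompact_cube

lemma integrable_inner_cube (y : E d) :
    Integrable (fun x : E d => inner ℝ x y) (volume.restrict (cube d)) := by
  have : ContinuousOn (fun x : E d => inner ℝ x y) (cube d) := by fun_prop
  exact this.integrableOn_compact isCompact_cube

/-- The pair of two-atom targets on the unit cube, with the lower bound for all optimal maps. -/
lemma cube_pair_strong (i0 i1 : Fin d) (h : i0 ≠ i1) (θ : ℝ) (h0 : 0 < θ) (h1 : θ ≤ 1) :
    ∃ (μ ν : Measure (E d)),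
      IsProbabilityMeasure μ ∧ IsProbabilityMeasure ν ∧
      μ (Metric.closedBall 0 2)ᶜ = 0 ∧ ν (Metric.closedBall 0 2)ᶜ = 0 ∧
      (∃ T, IsOTMap (unif (cube d)) μ T) ∧ (∃ T, IsOTMap (unif (cube d)) ν T) ∧
      W2 μ ν ≤ ENNReal.ofReal (θ ^ 3) ^ (1 / 2 : ℝ) ∧
      ∀ Tμ Tν : E d → E d, IsOTMap (unif (cube d)) μ Tμ → IsOTMap (unif (cube d)) ν Tν →
        ENNReal.ofReal (θ / 32) ^ (1 / 2 : ℝ)
          ≤ eLpNorm (fun x => Tμ x - Tν x) 2 (unif (cube d)) := by
  rw [unif_cube]
  set ρ : Measure (E d) := volume.restrict (cube d) with hρ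
  set y : E d := site i0 i1 θ with hy
  set y' : E d := site i0 i1 0 with hy'
  set A : Set (E d) := {x | 1 + θ / 2 < inner ℝ x y} with hA
  have hAm : MeasurableSet A := halfspace_measurable _ _
  set m : ℝ := (ρ A).toReal with hm
  have hmA : ρ A = ENNReal.ofReal m := (ENNReal.ofReal_toReal (measure_ne_top _ _)).symm
  have hm0 : 0 ≤ m := ENNReal.toReal_nonneg
  -- lower bound for the mass of the tilted cap
  have hlow : ENNReal.ofReal (θ / 16) ≤ ρ A := by
    have hsub : box2 i0 i1 (Ioc (3 / 4) 1) (Ioc (1 - θ / 4) 1) ⊆ A := by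
      intro x hx
      rw [mem_box2 i0 i1 h] at hx
      simp only [hA, Set.mem_ofPred_eq, hy, inner_site]
      nlinarith [hx.1.1, hx.2.1.1]
    have hvol : ρ (box2 i0 i1 (Ioc (3 / 4) 1) (Ioc (1 - θ / 4) 1)) = ENNReal.ofReal (θ / 16) := by
      rw [hρ, restrict_box2 i0 i1 h _ _ (fun t ht => ⟨by linarith [ht.1], ht.2⟩)
        (fun t ht => ⟨by linarith [ht.1], ht.2⟩) measurableSet_Ioc measurableSet_Ioc,
        Real.volume_Ioc, Real.volume_Ioc, ← ENNReal.ofReal_mul (by norm_num)]
      congr 1
      ring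
    rw [← hvol]
    exact measure_mono hsub
  -- upper bound for the mass of the tilted cap
  have hup : ρ A ≤ ENNReal.ofReal (θ / 2) := by
    have hsub : A ∩ cube d ⊆ box2 i0 i1 (Icc 0 1) (Ioc (1 - θ / 2) 1) := by
      rintro x ⟨hx, hxc⟩
      rw [mem_box2 i0 i1 h]
      simp only [hA, Set.mem_ofPred_eq, hy, inner_site] at hx
      refine ⟨hxc i0, ⟨?_, (hxc i1).2⟩, fun i _ _ => hxc i⟩
      nlinarith [(hxc i0).2]
    rw [hρ, Measure.restrict_apply hAm]
    refine (measure_mono hsub).trans (le_of_eq ?_)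
    rw [volume_box2 i0 i1 h _ _ measurableSet_Icc measurableSet_Ioc, Real.volume_Icc, Real.volume_Ioc]
    simp
  have hmlow : θ / 16 ≤ m := by
    rw [hmA] at hlow
    exact (ENNReal.ofReal_le_ofReal_iff hm0).mp hlow
  have hmup : m ≤ θ / 2 := by
    rw [hmA] at hup
    exact (ENNReal.ofReal_le_ofReal_iff (by positivity)).mp hup
  set A' : Set (E d) := {x | 1 - m < inner ℝ x y'} with hA'
  have hAm' : MeasurableSet A' := halfspace_measurable _ _
  have hmA' : ρ A' = ENNReal.ofReal m := slab_mass i0 i1 h m (by linarith)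
  have hball : MeasurableSet (Metric.closedBall (0 : E d) 2) := Metric.isClosed_closedBall.measurableSet
  refine ⟨ρ.map (capMap A y), ρ.map (capMap A' y'),
    Measure.isProbabilityMeasure_map (measurable_capMap hAm y).aemeasurable,
    Measure.isProbabilityMeasure_map (measurable_capMap hAm' y').aemeasurable,
    map_capMap_compl ρ hAm y _ hball (by simp) (by simpa using norm_site_le i0 i1 θ h0.le h1),
    map_capMap_compl ρ hAm' y' _ hball (by simp) (by simpa using norm_site_le i0 i1 0 le_rfl zero_le_one),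
    ⟨capMap A y, isOTMap_capMap ρ y (site_ne_zero i0 i1 h θ) (1 + θ / 2) (by positivity)
      (fin_cond i0 i1 θ _ h0.le h1 (by positivity))⟩,
    ⟨capMap A' y', isOTMap_capMap ρ y' (site_ne_zero i0 i1 h 0) (1 - m) (by linarith)
      (fin_cond i0 i1 0 _ le_rfl zero_le_one (by linarith))⟩, ?_, ?_⟩
  · refine (W2_capMap_le ρ hAm hAm' (hmA.trans hmA'.symm) y y').trans ?_
    apply ENNReal.rpow_le_rpow _ (by norm_num)
    rw [hmA', hy, hy', site_sub, ← ENNReal.ofReal_mul (by positivity)]
    apply ENNReal.ofReal_le_ofReal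
    nlinarith [sq_nonneg θ]
  · intro Tμ Tν hTμ hTν
    have aeμ : Tμ =ᵐ[ρ] capMap A y :=
      isOTMap_ae_eq_capMap ρ y (site_ne_zero i0 i1 h θ) integrable_sq_cube
        (integrable_inner_cube y) (1 + θ / 2) Tμ hTμ
    have aeν : Tν =ᵐ[ρ] capMap A' y' :=
      isOTMap_ae_eq_capMap ρ y' (site_ne_zero i0 i1 h 0) integrable_sq_cube
        (integrable_inner_cube y') (1 - m) Tν hTν
    have hcongr : eLpNorm (fun x => Tμ x - Tν x) 2 ρ
        = eLpNorm (fun x => capMap A y x - capMap A' y' x) 2 ρ := by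
      apply eLpNorm_congr_ae
      filter_upwards [aeμ, aeν] with x e1 e2
      rw [e1, e2]
    rw [hcongr]
    set B : Set (E d) := box2 i0 i1 (Icc 0 (1 / 2)) (Ioc (1 - m) 1) with hB
    have hBm : MeasurableSet B := measurableSet_box2 i0 i1 _ _ measurableSet_Icc measurableSet_Ioc
    have hBvol : ρ B = ENNReal.ofReal (m / 2) := by
      rw [hρ, restrict_box2 i0 i1 h _ _ (fun t ht => ⟨ht.1, by linarith [ht.2]⟩)
        (fun t ht => ⟨by linarith [ht.1], ht.2⟩) measurableSet_Icc measurableSet_Ioc,
        Real.volume_Icc, Real.volume_Ioc, ← ENNReal.ofReal_mul (by norm_num)]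
      congr 1
      ring
    have hge := eLpNorm_ge ρ (fun x => capMap A y x - capMap A' y' x) B hBm (by
      intro x hx
      rw [hB, mem_box2 i0 i1 h] at hx
      have hxA : x ∉ A := by
        simp only [hA, Set.mem_ofPred_eq, hy, inner_site, not_lt]
        nlinarith [hx.1.2, hx.2.1.2]
      have hxA' : x ∈ A' := by
        simp only [hA', Set.mem_ofPred_eq, hy', inner_site, zero_mul, zero_add]
        exact hx.2.1.1
      rw [show capMap A y x = 0 from Set.indicator_of_notMem hxA _,
        show capMap A' y' x = y' from Set.indicator_of_mem hxA' _, zero_sub, norm_neg, hy',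
        norm_site_zero])
    refine le_trans ?_ hge
    apply ENNReal.rpow_le_rpow _ (by norm_num)
    rw [hBvol]
    apply ENNReal.ofReal_le_ofReal
    linarith


end Vale.Agent.Lib.P074
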