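import Vale.Agent.Lib.P074.H8Shift

open MeasureTheory Set Metric
open scoped ENNReal NNReal RealInnerProductSpace

namespace Vale.Agent.Lib.P074

variable {d : ℕ} {n : ℕ}
variable (w : Fin (n + 1) → E d) (δ : ℝ)
  (hdisj : Pairwise (fun i j => Disjoint (closedBall (w i) δ) (closedBall (w j) δ)))

/-- the backward shift -/
noncomputable def shiftInv (w : Fin (n + 1) → E d) (δ : ℝ) (x : E d) : E d :=
  x - shiftDispInv w δ x

lemma measurable_shiftInv : Measurable (shiftInv w δ) :=
  measurable_id.sub (measurable_shiftDispInv w δ)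

include hdisj in
lemma map_restrict_ball (j : Fin (n + 1)) :
    (volume.restrict (closedBall (w (j + 1)) δ)).map (shiftInv w δ)
      = volume.restrict (closedBall (w j) δ) := by
  have h1 : (volume.restrict (closedBall (w (j + 1)) δ)).map (shiftInv w δ)
      = (volume.restrict (closedBall (w (j + 1)) δ)).map (fun x => x - (w (j + 1) - w j)) := by
    apply Measure.map_congr
    filter_upwards [ae_restrict_mem measurableSet_closedBall] with x hx
    unfold shiftInv
    rw [shiftDispInv_of_mem w δ hdisj hx]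
  rw [h1]
  have h2 : closedBall (w (j + 1)) δ = (fun x => x - (w (j + 1) - w j)) ⁻¹' closedBall (w j) δ := by
    ext x
    exact (sub_mem_closedBall w δ).symm
  have hm : Measurable (fun x : E d => x - (w (j + 1) - w j)) := measurable_id.sub_const _
  rw [h2, ← Measure.restrict_map hm measurableSet_closedBall, map_sub_right_eq_self]

lemma map_restrict_compl :
    (volume.restrict (⋃ k, closedBall (w k) δ)ᶜ).map (shiftInv w δ)
      = volume.restrict (⋃ k, closedBall (w k) δ)ᶜ := by
  have hm : MeasurableSet (⋃ k, closedBall (w k) δ)ᶜ :=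
    (MeasurableSet.iUnion fun k => measurableSet_closedBall).compl
  have h1 : (volume.restrict (⋃ k, closedBall (w k) δ)ᶜ).map (shiftInv w δ)
      = (volume.restrict (⋃ k, closedBall (w k) δ)ᶜ).map id := by
    apply Measure.map_congr
    filter_upwards [ae_restrict_mem hm] with x hx
    unfold shiftInv
    rw [shiftDispInv_of_notMem w δ (by simpa using hx)]
    simp
  rw [h1, Measure.map_id]

include hdisj in
lemma map_shiftInv_volume : (volume : Measure (E d)).map (shiftInv w δ) = volume := by
  have hmW : MeasurableSet (⋃ k, closedBall (w k) δ) :=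
    MeasurableSet.iUnion fun k => measurableSet_closedBall
  have hdec : (volume : Measure (E d)) = (∑ k, volume.restrict (closedBall (w k) δ))
      + volume.restrict (⋃ k, closedBall (w k) δ)ᶜ := by
    rw [← Measure.sum_fintype, ← Measure.restrict_iUnion hdisj (fun k => measurableSet_closedBall),
      Measure.restrict_add_restrict_compl hmW]
  have hdec' : (volume : Measure (E d)) = (∑ k, volume.restrict (closedBall (w (k + 1)) δ))
      + volume.restrict (⋃ k, closedBall (w k) δ)ᶜ := by
    have := Equiv.sum_comp (Equiv.addRight (1 : Fin (n + 1)))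
      (fun k => (volume : Measure (E d)).restrict (closedBall (w k) δ))
    simp only [Equiv.coe_addRight] at this
    rw [this]
    exact hdec
  conv_lhs => rw [hdec']
  rw [Measure.map_add _ _ (measurable_shiftInv w δ), map_restrict_compl]
  conv_rhs => rw [hdec]
  congr 1
  rw [← Measure.sum_fintype, Measure.map_sum (measurable_shiftInv w δ).aemeasurable,
    Measure.sum_fintype]
  exact Finset.sum_congr rfl fun j _ => map_restrict_ball w δ hdisj j

include hdisj in
lemma shiftInv_preimage (K : Set (E d)) (hK : ∀ k, closedBall (w k) δ ⊆ K) :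
    shiftInv w δ ⁻¹' K = K := by
  ext x
  simp only [mem_preimage]
  unfold shiftInv
  by_cases hx : ∃ k, x ∈ closedBall (w k) δ
  · obtain ⟨k, hk⟩ := hx
    obtain ⟨j, rfl⟩ : ∃ j, k = j + 1 := ⟨k - 1, by simp⟩
    rw [shiftDispInv_of_mem w δ hdisj hk]
    constructor
    · intro _; exact hK _ hk
    · intro _; exact hK _ ((sub_mem_closedBall w δ).mpr hk)
  · push Not at hx
    rw [shiftDispInv_of_notMem w δ hx, sub_zero]

include hdisj in
lemma map_shiftInv_unif (K : Set (E d)) (hKm : MeasurableSet K)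
    (hK : ∀ k, closedBall (w k) δ ⊆ K) :
    (unif K).map (shiftInv w δ) = unif K := by
  unfold unif
  rw [Measure.map_smul]
  congr 1
  conv_lhs => rw [← shiftInv_preimage w δ hdisj K hK]
  rw [← Measure.restrict_map (measurable_shiftInv w δ) hKm, map_shiftInv_volume w δ hdisj]


lemma lintegral_enorm_sq_eq (ρ : Measure (E d)) [IsFiniteMeasure ρ] (f : E d → E d)
    (hf : Measurable f) (C : ℝ) (hC : ∀ᵐ x ∂ρ, ‖f x‖ ≤ C) :
    Integrable (fun x => ‖f x‖ ^ 2) ρ ∧
    ∫⁻ x, ‖f x‖ₑ ^ 2 ∂ρ = ENNReal.ofReal (∫ x, ‖f x‖ ^ 2 ∂ρ) := by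
  have hi : Integrable (fun x => ‖f x‖ ^ 2) ρ := by
    apply Integrable.of_bound (hf.norm.pow_const 2).aestronglyMeasurable (C ^ 2)
    filter_upwards [hC] with x hx
    rw [Real.norm_eq_abs, abs_of_nonneg (by positivity)]
    exact pow_le_pow_left₀ (norm_nonneg _) hx 2
  refine ⟨hi, ?_⟩
  rw [ofReal_integral_eq_lintegral_ofReal hi (Filter.Eventually.of_forall fun x => by positivity)]
  apply lintegral_congr
  intro x
  rw [ENNReal.ofReal_pow (norm_nonneg _), ofReal_norm]

/-- Optimality against a measure preserving rearrangement of the source. -/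
lemma opt_ineq (ρ : Measure (E d)) [IsFiniteMeasure ρ] (T : E d → E d) (hTm : Measurable T)
    (R : ℝ) (hTR : ∀ x, ‖T x‖ ≤ R)
    (hopt : ∀ S : E d → E d, Measurable S → ρ.map S = ρ.map T → cost ρ T ≤ cost ρ S)
    (τ D : E d → E d) (hτ : Measurable τ) (hD : Measurable D) (hτρ : ρ.map τ = ρ)
    (hinv : ∀ x, τ x + D (τ x) = x) (M : ℝ) (hM : ∀ᵐ x ∂ρ, ‖x‖ ≤ M)
    (M' : ℝ) (hDM : ∀ x, ‖D x‖ ≤ M') :
    ∫ x, ⟪D x, T x⟫ ∂ρ ≤ 0 := by
  have h1 : cost ρ T ≤ cost ρ (T ∘ τ) :=
    hopt _ (hTm.comp hτ) (by rw [← Measure.map_map hTm hτ, hτρ])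
  have h2 : cost ρ (T ∘ τ) = ∫⁻ x, ‖x + D x - T x‖ₑ ^ 2 ∂ρ := by
    conv_rhs => rw [← hτρ]
    have hm : Measurable (fun x : E d => ‖x + D x - T x‖ₑ ^ 2) :=
      ((measurable_id.add hD).sub hTm).enorm.pow_const 2
    rw [lintegral_map hm hτ]
    unfold cost
    apply lintegral_congr
    intro x
    rw [hinv]
    rfl
  obtain ⟨i1, e1⟩ := lintegral_enorm_sq_eq ρ (fun x => x - T x) (measurable_id.sub hTm) (M + R) (by
    filter_upwards [hM] with x hx
    exact (norm_sub_le _ _).trans (add_le_add hx (hTR x)))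
  obtain ⟨i2, e2⟩ := lintegral_enorm_sq_eq ρ (fun x => x + D x - T x)
    ((measurable_id.add hD).sub hTm) (M + M' + R) (by
    filter_upwards [hM] with x hx
    exact (norm_sub_le _ _).trans (add_le_add ((norm_add_le _ _).trans (add_le_add hx (hDM x))) (hTR x)))
  obtain ⟨i3, -⟩ := lintegral_enorm_sq_eq ρ (fun x => x) measurable_id M hM
  obtain ⟨i4, -⟩ := lintegral_enorm_sq_eq ρ (fun x => x + D x) (measurable_id.add hD) (M + M') (by
    filter_upwards [hM] with x hx
    exact (norm_add_le _ _).trans (add_le_add hx (hDM x)))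
  have h3 : ∫ x, ‖x - T x‖ ^ 2 ∂ρ ≤ ∫ x, ‖x + D x - T x‖ ^ 2 ∂ρ := by
    rw [h2] at h1
    unfold cost at h1
    rw [e1, e2] at h1
    exact (ENNReal.ofReal_le_ofReal_iff (integral_nonneg fun x => by positivity)).mp h1
  have h4 : ∫ x, ‖x + D x‖ ^ 2 ∂ρ = ∫ x, ‖x‖ ^ 2 ∂ρ := by
    conv_lhs => rw [← hτρ]
    have hm : Measurable (fun x : E d => ‖x + D x‖ ^ 2) :=
      (measurable_id.add hD).norm.pow_const 2
    rw [integral_map hτ.aemeasurable hm.aestronglyMeasurable]
    apply integral_congr_ae
    filter_upwards with x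
    rw [hinv]
  have h5 : ∀ x, ⟪D x, T x⟫ = (1 / 2 : ℝ) * ((‖x + D x‖ ^ 2 - ‖x‖ ^ 2)
      - (‖x + D x - T x‖ ^ 2 - ‖x - T x‖ ^ 2)) := by
    intro x
    rw [norm_sub_sq_real, norm_sub_sq_real, inner_add_left]
    ring
  simp_rw [h5]
  have i5 : Integrable (fun x => ‖x + D x‖ ^ 2 - ‖x‖ ^ 2) ρ := i4.sub i3
  have i6 : Integrable (fun x => ‖x + D x - T x‖ ^ 2 - ‖x - T x‖ ^ 2) ρ := i2.sub i1
  rw [integral_const_mul, integral_sub i5 i6, integral_sub i4 i3,
    integral_sub i2 i1, h4]
  linarith


lemma norm_shiftDisp_le (w : Fin (n + 1) → E d) (δ : ℝ) (x : E d) :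
    ‖shiftDisp w δ x‖ ≤ ∑ j, ‖w (j + 1) - w j‖ := by
  unfold shiftDisp
  refine (norm_sum_le _ _).trans (Finset.sum_le_sum fun j _ => ?_)
  exact norm_indicator_le_norm_self (fun _ => w (j + 1) - w j) x

lemma isFiniteMeasure_unif (K : Set (E d)) (h0 : volume K ≠ 0) (htop : volume K ≠ ∞) :
    IsFiniteMeasure (unif K) := by
  unfold unif
  have : IsFiniteMeasure (volume.restrict K) := isFiniteMeasure_restrict.mpr htop
  exact Measure.smul_finite _ (ENNReal.inv_ne_top.mpr h0)

lemma ae_unif_mem (K : Set (E d)) (hKm : MeasurableSet K) : ∀ᵐ x ∂(unif K), x ∈ K := by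
  unfold unif
  exact Measure.ae_smul_measure (ae_restrict_mem hKm) _

/-- The swap inequality: averages of an optimal map over disjoint equal balls inside `K` are
cyclically monotone with respect to the centres. -/
lemma swap_ineq (K : Set (E d)) (hK : IsCompact K) (T : E d → E d) (hTm : Measurable T)
    (R : ℝ) (hTR : ∀ x, ‖T x‖ ≤ R)
    (hopt : ∀ S : E d → E d, Measurable S → (unif K).map S = (unif K).map T →
      cost (unif K) T ≤ cost (unif K) S)
    (w : Fin (n + 1) → E d) (δ : ℝ) (hδ : 0 < δ)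
    (hdisj : Pairwise (fun i j => Disjoint (closedBall (w i) δ) (closedBall (w j) δ)))
    (hsub : ∀ k, closedBall (w k) δ ⊆ K) :
    ∑ j, ⟪w (j + 1) - w j, ⨍ y in closedBall (w j) δ, T y⟫ ≤ 0 := by
  have hKm : MeasurableSet K := hK.measurableSet
  have htop : volume K ≠ ∞ := hK.measure_lt_top.ne
  have h0 : volume K ≠ 0 := by
    have h1 : 0 < volume (closedBall (w 0) δ) := measure_closedBall_pos _ _ hδ
    exact (h1.trans_le (measure_mono (hsub 0))).ne'
  have := isFiniteMeasure_unif K h0 htop
  obtain ⟨M, hM⟩ := hK.isBounded.exists_norm_le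
  have main := opt_ineq (unif K) T hTm R hTR hopt (shiftInv w δ) (shiftDisp w δ)
    (measurable_shiftInv w δ) (measurable_shiftDisp w δ) (map_shiftInv_unif w δ hdisj K hKm hsub)
    (shift_leftInverse w δ hdisj) M (by
      filter_upwards [ae_unif_mem K hKm] with x hx using hM x hx) _ (norm_shiftDisp_le w δ)
  set b : ℝ := volume.real (closedBall (0 : E d) δ) with hb
  have hbpos : 0 < b := by
    rw [hb, measureReal_def]
    exact ENNReal.toReal_pos (measure_closedBall_pos _ _ hδ).ne' measure_closedBall_lt_top.ne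
  have hc : 0 < ((volume K)⁻¹).toReal :=
    ENNReal.toReal_pos (ENNReal.inv_ne_zero.mpr htop) (ENNReal.inv_ne_top.mpr h0)
  have hTi : ∀ j, IntegrableOn T (closedBall (w j) δ) volume := by
    intro j
    have : IsFiniteMeasure (volume.restrict (closedBall (w j) δ)) :=
      isFiniteMeasure_restrict.mpr measure_closedBall_lt_top.ne
    exact Integrable.of_bound hTm.aestronglyMeasurable R (Filter.Eventually.of_forall hTR)
  have e1 : ∀ x, ⟪shiftDisp w δ x, T x⟫
      = ∑ j, (closedBall (w j) δ).indicator (fun y => ⟪w (j + 1) - w j, T y⟫) x := by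
    intro x
    unfold shiftDisp
    rw [sum_inner]
    apply Finset.sum_congr rfl
    intro j _
    by_cases hx : x ∈ closedBall (w j) δ
    · rw [indicator_of_mem hx, indicator_of_mem hx]
    · rw [indicator_of_notMem hx, indicator_of_notMem hx, inner_zero_left]
  have e2 : ∫ x, ⟪shiftDisp w δ x, T x⟫ ∂(unif K)
      = ((volume K)⁻¹).toReal * (b * ∑ j, ⟪w (j + 1) - w j, ⨍ y in closedBall (w j) δ, T y⟫) := by
    unfold unif
    rw [integral_smul_measure, smul_eq_mul]
    congr 1
    simp_rw [e1]
    rw [integral_finsetSum, Finset.mul_sum]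
    · apply Finset.sum_congr rfl
      intro j _
      rw [setIntegral_indicator measurableSet_closedBall, inter_eq_right.mpr (hsub j),
        integral_inner (hTi j), ← measure_smul_setAverage T measure_closedBall_lt_top.ne,
        inner_smul_right, measureReal_def, Measure.addHaar_closedBall_center, ← measureReal_def]
    · intro j _
      apply Integrable.indicator _ measurableSet_closedBall
      have : IsFiniteMeasure (volume.restrict K) := isFiniteMeasure_restrict.mpr htop
      apply Integrable.of_bound (measurable_const.inner hTm).aestronglyMeasurable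
        (‖w (j + 1) - w j‖ * R)
      filter_upwards with x
      exact (norm_inner_le_norm _ _).trans (mul_le_mul_of_nonneg_left (hTR x) (norm_nonneg _))
  rw [e2] at main
  by_contra hcon
  push Not at hcon
  have : 0 < ((volume K)⁻¹).toReal * (b * ∑ j, ⟪w (j + 1) - w j, ⨍ y in closedBall (w j) δ, T y⟫) := by
    positivity
  linarith

end Vale.Agent.Lib.P074
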