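import Vale.Agent.Lib.P074.Defs

/-!
# P074: Wasserstein distances `W_p` and the corresponding stability exponents
-/

open MeasureTheory
open scoped ENNReal NNReal

namespace Vale.Agent.Lib.P074

/-- The Wasserstein distance `W_p(μ, ν) = inf_π (∫ |y - z|^p dπ(y, z))^(1/p)`, the infimum over
couplings `π` of `μ, ν` (used for real `p ≥ 1`). -/
noncomputable def Wp {d : ℕ} (p : ℝ) (μ ν : Measure (E d)) : ℝ≥0∞ :=
  (⨅ π : {π : Measure (E d × E d) // π.map Prod.fst = μ ∧ π.map Prod.snd = ν},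
    ∫⁻ q, enorm (q.1 - q.2) ^ p ∂π.1) ^ (1 / p)

/-- `β` is an admissible stability exponent with respect to `W_p` in dimension `d`: for every
compact convex `K` with nonempty interior and every nonempty compact `Y` there is a finite `C` with
`‖T_μ - T_ν‖_{L^2(ρ)} ≤ C * W_p(μ, ν)^β` for all Borel probability measures `μ, ν` carried by `Y`
and all quadratic optimal transport maps `T_μ, T_ν` from `ρ = unif K` to `μ, ν`. -/
def AdmissibleWp (d : ℕ) (p β : ℝ) : Prop :=
  ∀ K : Set (E d), IsCompact K → Convex ℝ K → (interior K).Nonempty →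
    ∀ Y : Set (E d), IsCompact Y → Y.Nonempty →
      ∃ C : ℝ≥0, ∀ μ ν : Measure (E d), IsProbabilityMeasure μ → IsProbabilityMeasure ν →
        μ (Y)ᶜ = 0 → ν (Y)ᶜ = 0 →
          ∀ Tμ Tν : E d → E d, IsOTMap (unif K) μ Tμ → IsOTMap (unif K) ν Tν →
            eLpNorm (fun x => Tμ x - Tν x) 2 (unif K) ≤ (C : ℝ≥0∞) * Wp p μ ν ^ β

/-- The same, with the bound asked only for SOME optimal maps `T_μ, T_ν` (which must exist). -/
def AdmissibleWpSome (d : ℕ) (p β : ℝ) : Prop :=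
  ∀ K : Set (E d), IsCompact K → Convex ℝ K → (interior K).Nonempty →
    ∀ Y : Set (E d), IsCompact Y → Y.Nonempty →
      ∃ C : ℝ≥0, ∀ μ ν : Measure (E d), IsProbabilityMeasure μ → IsProbabilityMeasure ν →
        μ (Y)ᶜ = 0 → ν (Y)ᶜ = 0 →
          ∃ Tμ Tν : E d → E d, IsOTMap (unif K) μ Tμ ∧ IsOTMap (unif K) ν Tν ∧
            eLpNorm (fun x => Tμ x - Tν x) 2 (unif K) ≤ (C : ℝ≥0∞) * Wp p μ ν ^ β

end Vale.Agent.Lib.P074
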