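import Vale.Agent.Lib.P074.H8Strong
import Vale.Agent.Lib.P074.H8WpDefs

/-!
# P074: the cube pair measured in `W_p`
-/

open MeasureTheory Set
open scoped ENNReal NNReal

namespace Vale.Agent.Lib.P074

variable {d : ℕ}

lemma Wp_le_of_coupling (p : ℝ) (hp : 0 < p) (μ ν : Measure (E d)) (π : Measure (E d × E d))
    (h1 : π.map Prod.fst = μ) (h2 : π.map Prod.snd = ν) :
    Wp p μ ν ≤ (∫⁻ q, ‖q.1 - q.2‖ₑ ^ p ∂π) ^ (1 / p) := by
  unfold Wp
  apply ENNReal.rpow_le_rpow _ (by positivity)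
  exact iInf_le (fun π : {π : Measure (E d × E d) // π.map Prod.fst = μ ∧ π.map Prod.snd = ν} =>
    ∫⁻ q, ‖q.1 - q.2‖ₑ ^ p ∂π.1) ⟨π, h1, h2⟩

lemma Wp_capMap_le (p : ℝ) (hp : 0 < p) (ρ : Measure (E d)) [IsFiniteMeasure ρ] {A A' : Set (E d)}
    (hA : MeasurableSet A) (hA' : MeasurableSet A') (hm : ρ A = ρ A') (y y' : E d) :
    Wp p (ρ.map (capMap A y)) (ρ.map (capMap A' y')) ≤ (‖y - y'‖ₑ ^ p * ρ A') ^ (1 / p) := by
  have hR : Measurable (capMap A' y) := measurable_capMap hA' y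
  have hT' : Measurable (capMap A' y') := measurable_capMap hA' y'
  have hlaw : ρ.map (capMap A' y) = ρ.map (capMap A y) := by
    rw [map_capMap ρ hA, map_capMap ρ hA', hm, measure_compl hA (measure_ne_top _ _),
      measure_compl hA' (measure_ne_top _ _), hm]
  have hpair : Measurable fun x => (capMap A' y x, capMap A' y' x) := hR.prodMk hT'
  have h := Wp_le_of_coupling p hp (ρ.map (capMap A y)) (ρ.map (capMap A' y'))
    (ρ.map fun x => (capMap A' y x, capMap A' y' x))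
    (by rw [Measure.map_map measurable_fst hpair, ← hlaw]; rfl)
    (by rw [Measure.map_map measurable_snd hpair]; rfl)
  refine h.trans (le_of_eq ?_)
  congr 1
  have hm2 : Measurable fun q : E d × E d => ‖q.1 - q.2‖ₑ ^ p := by fun_prop
  rw [lintegral_map hm2 hpair]
  have : (fun x => ‖capMap A' y x - capMap A' y' x‖ₑ ^ p) = A'.indicator fun _ => ‖y - y'‖ₑ ^ p := by
    ext x
    by_cases hx : x ∈ A'
    · simp [capMap, hx]
    · simp [capMap, hx, hp]
  rw [this, lintegral_indicator_const hA']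

lemma enorm_site_sub (i0 i1 : Fin d) (θ : ℝ) (h0 : 0 ≤ θ) :
    ‖site i0 i1 θ - site i0 i1 0‖ₑ = ENNReal.ofReal θ := by
  rw [← ofReal_norm]
  congr 1
  simp [site, single_zero', abs_of_nonneg h0]

/-- The pair of two-atom targets on the unit cube, measured in `W_p`. -/
lemma cube_pair_strong_p (p : ℝ) (hp : 1 ≤ p) (i0 i1 : Fin d) (h : i0 ≠ i1) (θ : ℝ) (h0 : 0 < θ)
    (h1 : θ ≤ 1) :
    ∃ (μ ν : Measure (E d)),
      IsProbabilityMeasure μ ∧ IsProbabilityMeasure ν ∧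
      μ (Metric.closedBall 0 2)ᶜ = 0 ∧ ν (Metric.closedBall 0 2)ᶜ = 0 ∧
      (∃ T, IsOTMap (unif (cube d)) μ T) ∧ (∃ T, IsOTMap (unif (cube d)) ν T) ∧
      Wp p μ ν ≤ ENNReal.ofReal (θ ^ (p + 1)) ^ (1 / p) ∧
      ∀ Tμ Tν : E d → E d, IsOTMap (unif (cube d)) μ Tμ → IsOTMap (unif (cube d)) ν Tν →
        ENNReal.ofReal (θ / 32) ^ (1 / 2 : ℝ)
          ≤ eLpNorm (fun x => Tμ x - Tν x) 2 (unif (cube d)) := by
  have hp0 : 0 < p := by linarith
  rw [unif_cube]
  set ρ : Measure (E d) := volume.restrict (cube d) with hρ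
  set y : E d := site i0 i1 θ with hy
  set y' : E d := site i0 i1 0 with hy'
  set A : Set (E d) := {x | 1 + θ / 2 < inner ℝ x y} with hA
  have hAm : MeasurableSet A := halfspace_measurable _ _
  set m : ℝ := (ρ A).toReal with hm
  have hmA : ρ A = ENNReal.ofReal m := (ENNReal.ofReal_toReal (measure_ne_top _ _)).symm
  have hm0 : 0 ≤ m := ENNReal.toReal_nonneg
  -- lower bound for the mass of the tilted cap
  have hlow : ENNReal.ofReal (θ / 16) ≤ ρ A := by
    have hsub : box2 i0 i1 (Ioc (3 / 4) 1) (Ioc (1 - θ / 4) 1) ⊆ A := by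
      intro x hx
      rw [mem_box2 i0 i1 h] at hx
      simp only [hA, Set.mem_ofPred_eq, hy, inner_site]
      nlinarith [hx.1.1, hx.2.1.1]
    have hvol : ρ (box2 i0 i1 (Ioc (3 / 4) 1) (Ioc (1 - θ / 4) 1)) = ENNReal.ofReal (θ / 16) := by
      rw [hρ, restrict_box2 i0 i1 h _ _ (fun t ht => ⟨by linarith [ht.1], ht.2⟩)
        (fun t ht => ⟨by linarith [ht.1], ht.2⟩) measurableSet_Ioc measurableSet_Ioc,
        Real.volume_Ioc, Real.volume_Ioc, ← ENNReal.ofReal_mul (by norm_num)]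
      congr 1
      ring
    rw [← hvol]
    exact measure_mono hsub
  -- upper bound for the mass of the tilted cap
  have hup : ρ A ≤ ENNReal.ofReal (θ / 2) := by
    have hsub : A ∩ cube d ⊆ box2 i0 i1 (Icc 0 1) (Ioc (1 - θ / 2) 1) := by
      rintro x ⟨hx, hxc⟩
      rw [mem_box2 i0 i1 h]
      simp only [hA, Set.mem_ofPred_eq, hy, inner_site] at hx
      refine ⟨hxc i0, ⟨?_, (hxc i1).2⟩, fun i _ _ => hxc i⟩
      nlinarith [(hxc i0).2]
    rw [hρ, Measure.restrict_apply hAm]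
    refine (measure_mono hsub).trans (le_of_eq ?_)
    rw [volume_box2 i0 i1 h _ _ measurableSet_Icc measurableSet_Ioc, Real.volume_Icc, Real.volume_Ioc]
    simp
  have hmlow : θ / 16 ≤ m := by
    rw [hmA] at hlow
    exact (ENNReal.ofReal_le_ofReal_iff hm0).mp hlow
  have hmup : m ≤ θ / 2 := by
    rw [hmA] at hup
    exact (ENNReal.ofReal_le_ofReal_iff (by positivity)).mp hup
  set A' : Set (E d) := {x | 1 - m < inner ℝ x y'} with hA'
  have hAm' : MeasurableSet A' := halfspace_measurable _ _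
  have hmA' : ρ A' = ENNReal.ofReal m := slab_mass i0 i1 h m (by linarith)
  have hball : MeasurableSet (Metric.closedBall (0 : E d) 2) := Metric.isClosed_closedBall.measurableSet
  refine ⟨ρ.map (capMap A y), ρ.map (capMap A' y'),
    Measure.isProbabilityMeasure_map (measurable_capMap hAm y).aemeasurable,
    Measure.isProbabilityMeasure_map (measurable_capMap hAm' y').aemeasurable,
    map_capMap_compl ρ hAm y _ hball (by simp) (by simpa using norm_site_le i0 i1 θ h0.le h1),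
    map_capMap_compl ρ hAm' y' _ hball (by simp) (by simpa using norm_site_le i0 i1 0 le_rfl zero_le_one),
    ⟨capMap A y, isOTMap_capMap ρ y (site_ne_zero i0 i1 h θ) (1 + θ / 2) (by positivity)
      (fin_cond i0 i1 θ _ h0.le h1 (by positivity))⟩,
    ⟨capMap A' y', isOTMap_capMap ρ y' (site_ne_zero i0 i1 h 0) (1 - m) (by linarith)
      (fin_cond i0 i1 0 _ le_rfl zero_le_one (by linarith))⟩, ?_, ?_⟩
  · refine (Wp_capMap_le p hp0 ρ hAm hAm' (hmA.trans hmA'.symm) y y').trans ?_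
    apply ENNReal.rpow_le_rpow _ (by positivity)
    rw [hmA', hy, hy', enorm_site_sub i0 i1 θ h0.le,
      ENNReal.ofReal_rpow_of_pos h0, ← ENNReal.ofReal_mul (by positivity)]
    apply ENNReal.ofReal_le_ofReal
    rw [Real.rpow_add h0, Real.rpow_one]
    apply mul_le_mul_of_nonneg_left _ (by positivity)
    linarith
  · intro Tμ Tν hTμ hTν
    have aeμ : Tμ =ᵐ[ρ] capMap A y :=
      isOTMap_ae_eq_capMap ρ y (site_ne_zero i0 i1 h θ) integrable_sq_cube
        (integrable_inner_cube y) (1 + θ / 2) Tμ hTμ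
    have aeν : Tν =ᵐ[ρ] capMap A' y' :=
      isOTMap_ae_eq_capMap ρ y' (site_ne_zero i0 i1 h 0) integrable_sq_cube
        (integrable_inner_cube y') (1 - m) Tν hTν
    have hcongr : eLpNorm (fun x => Tμ x - Tν x) 2 ρ
        = eLpNorm (fun x => capMap A y x - capMap A' y' x) 2 ρ := by
      apply eLpNorm_congr_ae
      filter_upwards [aeμ, aeν] with x e1 e2
      rw [e1, e2]
    rw [hcongr]
    set B : Set (E d) := box2 i0 i1 (Icc 0 (1 / 2)) (Ioc (1 - m) 1) with hB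
    have hBm : MeasurableSet B := measurableSet_box2 i0 i1 _ _ measurableSet_Icc measurableSet_Ioc
    have hBvol : ρ B = ENNReal.ofReal (m / 2) := by
      rw [hρ, restrict_box2 i0 i1 h _ _ (fun t ht => ⟨ht.1, by linarith [ht.2]⟩)
        (fun t ht => ⟨by linarith [ht.1], ht.2⟩) measurableSet_Icc measurableSet_Ioc,
        Real.volume_Icc, Real.volume_Ioc, ← ENNReal.ofReal_mul (by norm_num)]
      congr 1
      ring
    have hge := eLpNorm_ge ρ (fun x => capMap A y x - capMap A' y' x) B hBm (by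
      intro x hx
      rw [hB, mem_box2 i0 i1 h] at hx
      have hxA : x ∉ A := by
        simp only [hA, Set.mem_ofPred_eq, hy, inner_site, not_lt]
        nlinarith [hx.1.2, hx.2.1.2]
      have hxA' : x ∈ A' := by
        simp only [hA', Set.mem_ofPred_eq, hy', inner_site, zero_mul, zero_add]
        exact hx.2.1.1
      rw [show capMap A y x = 0 from Set.indicator_of_notMem hxA _,
        show capMap A' y' x = y' from Set.indicator_of_mem hxA' _, zero_sub, norm_neg, hy',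
        norm_site_zero])
    refine le_trans ?_ hge
    apply ENNReal.rpow_le_rpow _ (by norm_num)
    rw [hBvol]
    apply ENNReal.ofReal_le_ofReal
    linarith



lemma numeric_p (C : ℝ≥0) (p β : ℝ) (hp : 1 ≤ p) (hβ : p / (2 * (p + 1)) < β) :
    ∃ θ : ℝ, 0 < θ ∧ θ ≤ 1 ∧
      (C : ℝ≥0∞) * (ENNReal.ofReal (θ ^ (p + 1)) ^ (1 / p)) ^ β
        < ENNReal.ofReal (θ / 32) ^ (1 / 2 : ℝ) := by
  have hp0 : 0 < p := by linarith
  have hβ0 : 0 < β := lt_trans (by positivity) hβ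
  set γ : ℝ := (p + 1) * (1 / p) * β - 1 / 2 with hγ
  have hγpos : 0 < γ := by
    rw [hγ]
    rw [div_lt_iff₀ (by positivity)] at hβ
    have : (p + 1) * (1 / p) * β = (β * (2 * (p + 1))) / (2 * p) := by
      field_simp
    rw [this, sub_pos, lt_div_iff₀ (by positivity)]
    linarith
  set δ : ℝ := 1 / (6 * ((C : ℝ) + 1)) with hδ
  have hC : (0 : ℝ) ≤ C := C.coe_nonneg
  have hδpos : 0 < δ := by rw [hδ]; positivity
  have hδle : δ ≤ 1 := by
    rw [hδ, div_le_one (by positivity)]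
    linarith
  set θ : ℝ := δ ^ (1 / γ) with hθ
  have hθpos : 0 < θ := Real.rpow_pos_of_pos hδpos _
  have hθle : θ ≤ 1 := Real.rpow_le_one hδpos.le hδle (by positivity)
  have hθγ : θ ^ γ = δ := by
    rw [hθ, ← Real.rpow_mul hδpos.le, one_div_mul_cancel hγpos.ne', Real.rpow_one]
  refine ⟨θ, hθpos, hθle, ?_⟩
  rw [ENNReal.ofReal_rpow_of_nonneg (by positivity) (by positivity),
    ENNReal.ofReal_rpow_of_nonneg (by positivity) hβ0.le,
    ENNReal.ofReal_rpow_of_nonneg (by positivity) (by norm_num),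
    ← ENNReal.ofReal_coe_nnreal, ← ENNReal.ofReal_mul hC,
    ENNReal.ofReal_lt_ofReal_iff (by positivity)]
  have e1 : ((θ ^ (p + 1)) ^ (1 / p)) ^ β = θ ^ (1 / 2 : ℝ) * θ ^ γ := by
    rw [← Real.rpow_mul hθpos.le, ← Real.rpow_mul hθpos.le, ← Real.rpow_add hθpos]
    congr 1
    rw [hγ]; ring
  have e2 : (θ / 32) ^ (1 / 2 : ℝ) = θ ^ (1 / 2 : ℝ) / 32 ^ (1 / 2 : ℝ) :=
    Real.div_rpow hθpos.le (by norm_num) _
  have e3 : (32 : ℝ) ^ (1 / 2 : ℝ) ≤ 6 := by
    have : (32 : ℝ) ^ (1 / 2 : ℝ) ≤ (36 : ℝ) ^ (1 / 2 : ℝ) :=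
      Real.rpow_le_rpow (by norm_num) (by norm_num) (by norm_num)
    have h36 : (36 : ℝ) ^ (1 / 2 : ℝ) = 6 := by
      rw [show (36 : ℝ) = 6 ^ (2 : ℝ) by norm_num, ← Real.rpow_mul (by norm_num)]
      norm_num
    linarith
  have e4 : (0 : ℝ) < 32 ^ (1 / 2 : ℝ) := by positivity
  rw [e1, e2, hθγ]
  have hs : 0 < θ ^ (1 / 2 : ℝ) := by positivity
  have h5 : (C : ℝ) * δ < 1 / 6 := by
    rw [hδ]
    rw [mul_one_div, div_lt_div_iff₀ (by positivity) (by norm_num)]
    linarith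
  have h6 : (1 : ℝ) / 6 ≤ 1 / 32 ^ (1 / 2 : ℝ) := one_div_le_one_div_of_le e4 e3
  calc (C : ℝ) * (θ ^ (1 / 2 : ℝ) * δ) = θ ^ (1 / 2 : ℝ) * ((C : ℝ) * δ) := by ring
    _ < θ ^ (1 / 2 : ℝ) * (1 / 32 ^ (1 / 2 : ℝ)) := by
        apply mul_lt_mul_of_pos_left _ hs
        linarith
    _ = θ ^ (1 / 2 : ℝ) / 32 ^ (1 / 2 : ℝ) := by ring

end Vale.Agent.Lib.P074
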