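import Vale.Agent.Lib.P074.KR

open MeasureTheory Set
open scoped ENNReal NNReal

namespace Vale.Agent.Lib.P074

variable {d : ℕ}

lemma unif_isProb {K : Set (E d)} (hK : IsCompact K) (h0 : volume K ≠ 0) :
    IsProbabilityMeasure (unif K) := by
  constructor
  unfold unif
  rw [Measure.smul_apply, Measure.restrict_apply MeasurableSet.univ, univ_inter, smul_eq_mul]
  exact ENNReal.inv_mul_cancel h0 hK.measure_lt_top.ne

lemma ae_unif_mem_of_compact {K : Set (E d)} (hK : IsCompact K) : ∀ᵐ x ∂(unif K), x ∈ K := by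
  unfold unif
  apply Measure.ae_smul_measure
  exact ae_restrict_mem hK.isClosed.measurableSet

lemma integral_unif (K : Set (E d)) (f : E d → ℝ) :
    ∫ x, f x ∂(unif K) = (volume K).toReal⁻¹ * ∫ x in K, f x := by
  unfold unif
  rw [integral_smul_measure, ENNReal.toReal_inv, smul_eq_mul]

/-- integral of the second difference against the uniform measure -/
lemma integral_unif_secDiff_le {K : Set (E d)} (hK : IsCompact K) {RK : ℝ≥0}
    (hKR : ∀ x ∈ K, ‖x‖ ≤ RK) {φ : E d → ℝ} {R : ℝ≥0} (hc : ConvexOn ℝ univ φ)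
    (hφ : LipschitzWith R φ) (v : E d) (hv : ‖v‖ ≤ 1) :
    ∫ x, secDiff φ v x ∂(unif K) ≤ (volume K).toReal⁻¹ *
      (R * ‖v‖ ^ 2 * (volume (Metric.closedBall (0 : E d) (RK + 2))).toReal) := by
  rw [integral_unif]
  apply mul_le_mul_of_nonneg_left _ (by positivity)
  refine le_trans ?_ (integral_cutoff_secDiff_le hφ RK v hv)
  have hKm : MeasurableSet K := hK.isClosed.measurableSet
  have hcont := continuous_secDiff hφ.continuous v
  rw [← integral_indicator hKm]
  apply integral_mono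
  · exact (integrable_indicator_iff hKm).mpr (hcont.continuousOn.integrableOn_compact hK)
  · exact ((continuous_cutoff _).mul hcont).integrable_of_hasCompactSupport
      (hasCompactSupport_cutoff _).mul_right
  · intro x
    by_cases hx : x ∈ K
    · simp only [Set.indicator_of_mem hx]
      rw [cutoff_eq_one (hKR x hx), one_mul]
    · simp only [Set.indicator_of_notMem hx]
      exact mul_nonneg (cutoff_nonneg _ _) (secDiff_nonneg hc v x)


lemma secDiff_abs_le {φ : E d → ℝ} {R : ℝ≥0} (hφ : LipschitzWith R φ) (v x : E d) :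
    |secDiff φ v x| ≤ 2 * R * ‖v‖ := by
  have h1 := hφ.dist_le_mul (x + v) x
  have h2 := hφ.dist_le_mul (x - v) x
  rw [Real.dist_eq, dist_eq_norm] at h1 h2
  simp only [add_sub_cancel_left, sub_sub_cancel_left, norm_neg] at h1 h2
  unfold secDiff
  rw [abs_le] at *
  constructor <;> linarith [h1.1, h1.2, h2.1, h2.2]

/-- **Integrated inequality**: one directional component of `T1 - T0` in `L^1(ρ)` is controlled by
the second difference of the potential and the `L^1` cost of any coupling of the image measures. -/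
lemma integrated_ineq {K : Set (E d)} (hK : IsCompact K) (hKvol : volume K ≠ 0) {RK : ℝ≥0}
    (hKR : ∀ x ∈ K, ‖x‖ ≤ RK) {R : ℝ≥0} {T0 T1 : E d → E d} (hT0 : Measurable T0)
    (hT1 : Measurable T1) (hb0 : ∀ᵐ x ∂(unif K), ‖T0 x‖ ≤ R) (hb1 : ∀ᵐ x ∂(unif K), ‖T1 x‖ ≤ R)
    {φ0 φ1 : E d → ℝ} (hc0 : ConvexOn ℝ univ φ0) (hl0 : LipschitzWith R φ0)
    (hl1 : LipschitzWith R φ1)
    (hs0 : ∀ᵐ x ∂(unif K), ∀ z, φ0 x + inner ℝ (T0 x) (z - x) ≤ φ0 z)
    (hs1 : ∀ᵐ x ∂(unif K), ∀ z, φ1 x + inner ℝ (T1 x) (z - x) ≤ φ1 z)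
    (π : Measure (E d × E d)) (hπ0 : π.map Prod.fst = (unif K).map T0)
    (hπ1 : π.map Prod.snd = (unif K).map T1) (v : E d) (hv : ‖v‖ ≤ 1) :
    ENNReal.ofReal (∫ x, |inner ℝ v (T1 x - T0 x)| ∂(unif K) - (volume K).toReal⁻¹ *
      (R * ‖v‖ ^ 2 * (volume (Metric.closedBall (0 : E d) (RK + 2))).toReal))
      ≤ ((RK + 1 + (RK + 1) : ℝ≥0) : ℝ≥0∞) * ∫⁻ p, enorm (p.1 - p.2) ∂π := by
  have hprob : IsProbabilityMeasure (unif K) := unif_isProb hK hKvol
  set ρ := unif K with hρ
  set L : ℝ≥0 := RK + 1 with hL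
  set Ψ : E d → ℝ := fun y => conjBall (L : ℝ) φ0 y - conjBall (L : ℝ) φ1 y with hΨ
  have hΨl : LipschitzWith (L + L) Ψ :=
    (conjBall_lipschitz hl0.continuous).sub (conjBall_lipschitz hl1.continuous)
  -- integrability facts
  have hΨb : ∀ y : E d, ‖y‖ ≤ R → ‖Ψ y‖ ≤ |Ψ 0| + (L + L : ℝ≥0) * R := by
    intro y hy
    have := hΨl.dist_le_mul y 0
    rw [Real.dist_eq, dist_zero_right] at this
    have h2 : |Ψ y| ≤ |Ψ 0| + |Ψ y - Ψ 0| := by
      have := abs_add_le (Ψ 0) (Ψ y - Ψ 0)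
      simpa using this
    rw [Real.norm_eq_abs]
    have h3 : ((L + L : ℝ≥0) : ℝ) * ‖y‖ ≤ (L + L : ℝ≥0) * R := by gcongr
    linarith
  have iΨ0 : Integrable (fun x => Ψ (T0 x)) ρ :=
    Integrable.of_bound (hΨl.continuous.measurable.comp hT0).aestronglyMeasurable _
      (hb0.mono fun x hx => hΨb _ hx)
  have iΨ1 : Integrable (fun x => Ψ (T1 x)) ρ :=
    Integrable.of_bound (hΨl.continuous.measurable.comp hT1).aestronglyMeasurable _
      (hb1.mono fun x hx => hΨb _ hx)
  have iS : Integrable (fun x => secDiff φ0 v x) ρ :=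
    Integrable.of_bound (continuous_secDiff hl0.continuous v).aestronglyMeasurable (2 * R * ‖v‖)
      (Filter.Eventually.of_forall fun x => by
        rw [Real.norm_eq_abs]; exact secDiff_abs_le hl0 v x)
  have iF : Integrable (fun x => |inner ℝ v (T1 x - T0 x)|) ρ := by
    apply Integrable.of_bound (C := ‖v‖ * (R + R))
    · have : Measurable fun x => |inner ℝ v (T1 x - T0 x)| := by fun_prop
      exact this.aestronglyMeasurable
    · filter_upwards [hb0, hb1] with x h0 h1
      rw [Real.norm_eq_abs, abs_abs]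
      calc |inner ℝ v (T1 x - T0 x)| ≤ ‖v‖ * ‖T1 x - T0 x‖ := abs_real_inner_le_norm _ _
        _ ≤ ‖v‖ * (R + R) := by
            gcongr
            exact (norm_sub_le _ _).trans (by linarith)
  -- pointwise inequality integrated
  have hint : ∫ x, |inner ℝ v (T1 x - T0 x)| ∂ρ ≤
      ∫ x, secDiff φ0 v x ∂ρ + (∫ x, Ψ (T1 x) ∂ρ - ∫ x, Ψ (T0 x) ∂ρ) := by
    have iD : Integrable (fun x => Ψ (T1 x) - Ψ (T0 x)) ρ := iΨ1.sub iΨ0
    rw [← integral_sub iΨ1 iΨ0, ← integral_add iS iD]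
    apply integral_mono_ae iF (iS.add iD)
    filter_upwards [ae_unif_mem_of_compact hK, hs0, hs1] with x hxK h0 h1
    have hx : ‖x‖ + ‖v‖ ≤ (L : ℝ) := by
      have := hKR x hxK
      rw [hL]; push_cast; linarith
    exact key_pointwise L.coe_nonneg hl0.continuous hl1.continuous x (T0 x) (T1 x) v hx h0 h1
  have hS := integral_unif_secDiff_le hK hKR hc0 hl0 v hv
  -- Kantorovich-Rubinstein
  have jΨ0 : Integrable Ψ (ρ.map T0) :=
    (integrable_map_measure hΨl.continuous.aestronglyMeasurable hT0.aemeasurable).mpr iΨ0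
  have jΨ1 : Integrable Ψ (ρ.map T1) :=
    (integrable_map_measure hΨl.continuous.aestronglyMeasurable hT1.aemeasurable).mpr iΨ1
  have hkr := kr_easy hΨl (ρ.map T0) (ρ.map T1) jΨ0 jΨ1 π hπ0 hπ1
  rw [integral_map hT0.aemeasurable hΨl.continuous.aestronglyMeasurable,
    integral_map hT1.aemeasurable hΨl.continuous.aestronglyMeasurable] at hkr
  refine le_trans (ENNReal.ofReal_le_ofReal ?_) hkr
  linarith

end Vale.Agent.Lib.P074
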