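import Vale.Agent.Lib.P074.ConjBall

open MeasureTheory Set
open scoped ENNReal NNReal

namespace Vale.Agent.Lib.P074

variable {d : ℕ}

/-- Easy half of Kantorovich-Rubinstein: a Lipschitz function integrates almost equally against
the two marginals of a coupling with small `L^1` cost. -/
lemma kr_easy {M : ℝ≥0} {Ψ : E d → ℝ} (hΨ : LipschitzWith M Ψ) (μ0 μ1 : Measure (E d))
    (h0 : Integrable Ψ μ0) (h1 : Integrable Ψ μ1) (π : Measure (E d × E d))
    (hπ0 : π.map Prod.fst = μ0) (hπ1 : π.map Prod.snd = μ1) :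
    ENNReal.ofReal (∫ y, Ψ y ∂μ1 - ∫ y, Ψ y ∂μ0) ≤ M * ∫⁻ p, enorm (p.1 - p.2) ∂π := by
  have hm : AEStronglyMeasurable Ψ μ0 := h0.aestronglyMeasurable
  have i0 : Integrable (fun p : E d × E d => Ψ p.1) π := by
    rw [← hπ0] at h0
    exact (integrable_map_measure hΨ.continuous.aestronglyMeasurable measurable_fst.aemeasurable).mp h0
  have i1 : Integrable (fun p : E d × E d => Ψ p.2) π := by
    rw [← hπ1] at h1
    exact (integrable_map_measure hΨ.continuous.aestronglyMeasurable measurable_snd.aemeasurable).mp h1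
  have e0 : ∫ y, Ψ y ∂μ0 = ∫ p, Ψ p.1 ∂π := by
    rw [← hπ0, integral_map measurable_fst.aemeasurable hΨ.continuous.aestronglyMeasurable]
  have e1 : ∫ y, Ψ y ∂μ1 = ∫ p, Ψ p.2 ∂π := by
    rw [← hπ1, integral_map measurable_snd.aemeasurable hΨ.continuous.aestronglyMeasurable]
  rw [e0, e1, ← integral_sub i1 i0]
  calc ENNReal.ofReal (∫ p, (Ψ p.2 - Ψ p.1) ∂π)
      ≤ ∫⁻ p, ENNReal.ofReal (Ψ p.2 - Ψ p.1) ∂π := by
        have ipos : Integrable (fun p : E d × E d => max (Ψ p.2 - Ψ p.1) 0) π := (i1.sub i0).pos_part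
        have hle : ∫ p, (Ψ p.2 - Ψ p.1) ∂π ≤ ∫ p, max (Ψ p.2 - Ψ p.1) 0 ∂π := by
          apply integral_mono (i1.sub i0) ipos
          intro p
          exact le_max_left _ _
        refine (ENNReal.ofReal_le_ofReal hle).trans ?_
        rw [ofReal_integral_eq_lintegral_ofReal ipos
          (Filter.Eventually.of_forall fun p => le_max_right _ _)]
        apply lintegral_mono
        intro p
        rcases le_total (Ψ p.2 - Ψ p.1) 0 with h | h
        · simp [max_eq_right h]
        · simp [max_eq_left h]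
    _ ≤ ∫⁻ p, M * enorm (p.1 - p.2) ∂π := by
        apply lintegral_mono
        intro p
        have := hΨ.dist_le_mul p.2 p.1
        rw [Real.dist_eq, dist_eq_norm, norm_sub_rev] at this
        have h2 : Ψ p.2 - Ψ p.1 ≤ M * ‖p.1 - p.2‖ := (le_abs_self _).trans this
        calc ENNReal.ofReal (Ψ p.2 - Ψ p.1) ≤ ENNReal.ofReal (M * ‖p.1 - p.2‖) :=
              ENNReal.ofReal_le_ofReal h2
          _ = M * enorm (p.1 - p.2) := by
              rw [ENNReal.ofReal_mul M.coe_nonneg, ENNReal.ofReal_coe_nnreal, ofReal_norm]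
    _ = M * ∫⁻ p, enorm (p.1 - p.2) ∂π := by
        rw [lintegral_const_mul]
        fun_prop

end Vale.Agent.Lib.P074
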