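import Vale.Agent.Lib.P074.Stability

open MeasureTheory Set
open scoped ENNReal NNReal

namespace Vale.Agent.Lib.P074

variable {d : ℕ}

/-- From an arbitrary potential to a convex `R`-Lipschitz one (supremum of the supporting affine
functions at the good points). -/
lemma exists_lipschitz_potential (ρ : Measure (E d)) [IsProbabilityMeasure ρ] {R : ℝ≥0}
    {T : E d → E d} (hb : ∀ᵐ x ∂ρ, ‖T x‖ ≤ R) {φ : E d → ℝ}
    (hs : ∀ᵐ x ∂ρ, ∀ z, φ x + inner ℝ (T x) (z - x) ≤ φ z) :
    ∃ φ' : E d → ℝ, ConvexOn ℝ univ φ' ∧ LipschitzWith R φ' ∧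
      ∀ᵐ x ∂ρ, ∀ z, φ' x + inner ℝ (T x) (z - x) ≤ φ' z := by
  set Λ : Set (E d) := {x | (∀ z, φ x + inner ℝ (T x) (z - x) ≤ φ z) ∧ ‖T x‖ ≤ R} with hΛ
  have hae : ∀ᵐ x ∂ρ, x ∈ Λ := by
    filter_upwards [hs, hb] with x h1 h2 using ⟨h1, h2⟩
  obtain ⟨x0, hx0⟩ := hae.exists
  have : Nonempty Λ := ⟨⟨x0, hx0⟩⟩
  set φ' : E d → ℝ := fun z => ⨆ x : Λ, (φ x + inner ℝ (T x) (z - x)) with hφ'
  have hbdd : ∀ z, BddAbove (range fun x : Λ => φ x + inner ℝ (T x) (z - x)) := by
    intro z
    refine ⟨φ z, ?_⟩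
    rintro _ ⟨x, rfl⟩
    exact x.2.1 z
  have hle : ∀ z (x : Λ), φ x + inner ℝ (T x) (z - x) ≤ φ' z := fun z x => le_ciSup (hbdd z) x
  have hsup : ∀ z c, (∀ x : Λ, φ x + inner ℝ (T x) (z - x) ≤ c) → φ' z ≤ c := fun z c h => ciSup_le h
  have heq : ∀ x : Λ, φ' x = φ x := by
    intro x
    apply le_antisymm
    · exact hsup x _ fun x' => x'.2.1 x
    · have := hle x x
      simpa using this
  refine ⟨φ', ⟨convex_univ, ?_⟩, ?_, ?_⟩
  · intro z _ z' _ a b ha hb hab
    apply hsup
    intro x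
    have h1 := hle z x
    have h2 := hle z' x
    have e : a • z + b • z' - (x : E d) = a • (z - x) + b • (z' - x) := by
      rw [smul_sub, smul_sub]
      have : (x : E d) = a • (x : E d) + b • (x : E d) := by rw [← add_smul, hab, one_smul]
      nth_rewrite 1 [this]
      abel
    rw [e, inner_add_right, inner_smul_right, inner_smul_right]
    simp only [smul_eq_mul]
    have : φ x = a * φ x + b * φ x := by rw [← add_mul, hab, one_mul]
    nlinarith
  · apply LipschitzWith.of_dist_le_mul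
    have key : ∀ z z', φ' z ≤ φ' z' + R * ‖z - z'‖ := by
      intro z z'
      apply hsup
      intro x
      have h1 := hle z' x
      have h2 : inner ℝ (T x) (z - x) - inner ℝ (T x) (z' - x) ≤ R * ‖z - z'‖ := by
        rw [← inner_sub_right]
        have : z - (x : E d) - (z' - x) = z - z' := by abel
        rw [this]
        calc inner ℝ (T x) (z - z') ≤ ‖T x‖ * ‖z - z'‖ := real_inner_le_norm _ _
          _ ≤ R * ‖z - z'‖ := by gcongr; exact x.2.2
      linarith
    intro z z'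
    rw [Real.dist_eq, dist_eq_norm, abs_le]
    have h1 := key z z'
    have h2 := key z' z
    rw [norm_sub_rev] at h2
    constructor <;> linarith
  · filter_upwards [hae] with x hx z
    have := hle z ⟨x, hx⟩
    rw [heq ⟨x, hx⟩]
    exact this

end Vale.Agent.Lib.P074
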