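import Vale.Agent.Lib.P074.Bounds

open MeasureTheory Set
open scoped ENNReal NNReal

namespace Vale.Agent.Lib.P074

variable {d : ℕ}

lemma numeric (C : ℝ≥0) (α : ℝ) (hα : 1 / 3 < α) :
    ∃ θ : ℝ, 0 < θ ∧ θ ≤ 1 ∧
      (C : ℝ≥0∞) * (ENNReal.ofReal (θ ^ 3) ^ (1 / 2 : ℝ)) ^ α < ENNReal.ofReal (θ / 32) ^ (1 / 2 : ℝ) := by
  set γ : ℝ := 3 * α / 2 - 1 / 2 with hγ
  have hγpos : 0 < γ := by rw [hγ]; linarith
  set δ : ℝ := 1 / (6 * ((C : ℝ) + 1)) with hδ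
  have hC : (0 : ℝ) ≤ C := C.coe_nonneg
  have hδpos : 0 < δ := by rw [hδ]; positivity
  have hδle : δ ≤ 1 := by
    rw [hδ, div_le_one (by positivity)]
    linarith
  set θ : ℝ := δ ^ (1 / γ) with hθ
  have hθpos : 0 < θ := Real.rpow_pos_of_pos hδpos _
  have hθle : θ ≤ 1 := Real.rpow_le_one hδpos.le hδle (by positivity)
  have hθγ : θ ^ γ = δ := by
    rw [hθ, ← Real.rpow_mul hδpos.le, one_div_mul_cancel hγpos.ne', Real.rpow_one]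
  refine ⟨θ, hθpos, hθle, ?_⟩
  rw [ENNReal.ofReal_rpow_of_nonneg (by positivity) (by norm_num),
    ENNReal.ofReal_rpow_of_nonneg (by positivity) (by linarith),
    ENNReal.ofReal_rpow_of_nonneg (by positivity) (by norm_num),
    ← ENNReal.ofReal_coe_nnreal, ← ENNReal.ofReal_mul hC,
    ENNReal.ofReal_lt_ofReal_iff (by positivity)]
  have e1 : ((θ ^ 3) ^ (1 / 2 : ℝ)) ^ α = θ ^ (1 / 2 : ℝ) * θ ^ γ := by
    rw [← Real.rpow_natCast θ 3, ← Real.rpow_mul hθpos.le, ← Real.rpow_mul hθpos.le,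
      ← Real.rpow_add hθpos]
    congr 1
    rw [hγ]; push_cast; ring
  have e2 : (θ / 32) ^ (1 / 2 : ℝ) = θ ^ (1 / 2 : ℝ) / 32 ^ (1 / 2 : ℝ) :=
    Real.div_rpow hθpos.le (by norm_num) _
  have e3 : (32 : ℝ) ^ (1 / 2 : ℝ) ≤ 6 := by
    have : (32 : ℝ) ^ (1 / 2 : ℝ) ≤ (36 : ℝ) ^ (1 / 2 : ℝ) :=
      Real.rpow_le_rpow (by norm_num) (by norm_num) (by norm_num)
    have h36 : (36 : ℝ) ^ (1 / 2 : ℝ) = 6 := by
      rw [show (36 : ℝ) = 6 ^ (2 : ℝ) by norm_num, ← Real.rpow_mul (by norm_num)]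
      norm_num
    linarith
  have e4 : (0 : ℝ) < 32 ^ (1 / 2 : ℝ) := by positivity
  rw [e1, e2, hθγ]
  have hs : 0 < θ ^ (1 / 2 : ℝ) := by positivity
  have h5 : (C : ℝ) * δ < 1 / 6 := by
    rw [hδ]
    rw [mul_one_div, div_lt_div_iff₀ (by positivity) (by norm_num)]
    linarith
  have h6 : (1 : ℝ) / 6 ≤ 1 / 32 ^ (1 / 2 : ℝ) := one_div_le_one_div_of_le e4 e3
  calc (C : ℝ) * (θ ^ (1 / 2 : ℝ) * δ) = θ ^ (1 / 2 : ℝ) * ((C : ℝ) * δ) := by ring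
    _ < θ ^ (1 / 2 : ℝ) * (1 / 32 ^ (1 / 2 : ℝ)) := by
        apply mul_lt_mul_of_pos_left _ hs
        linarith
    _ = θ ^ (1 / 2 : ℝ) / 32 ^ (1 / 2 : ℝ) := by ring

end Vale.Agent.Lib.P074
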