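import Vale.Agent.Lib.P074.Defs

open MeasureTheory Set
open scoped ENNReal NNReal

namespace Vale.Agent.Lib.P074

variable {d : ℕ}

/-- a Lipschitz cutoff: `1` on the ball of radius `M`, `0` outside the ball of radius `M + 1` -/
noncomputable def cutoff (M : ℝ) (x : E d) : ℝ := max 0 (min 1 (M + 1 - ‖x‖))

lemma cutoff_nonneg (M : ℝ) (x : E d) : 0 ≤ cutoff M x := le_max_left _ _

lemma cutoff_eq_one {M : ℝ} {x : E d} (h : ‖x‖ ≤ M) : cutoff M x = 1 := by
  unfold cutoff
  rw [min_eq_left (by linarith), max_eq_right (by norm_num)]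

lemma cutoff_eq_zero {M : ℝ} {x : E d} (h : M + 1 ≤ ‖x‖) : cutoff M x = 0 := by
  unfold cutoff
  rw [max_eq_left]
  exact (min_le_right _ _).trans (by linarith)

lemma continuous_cutoff (M : ℝ) : Continuous (cutoff (d := d) M) := by
  unfold cutoff
  fun_prop

lemma cutoff_sub_le (M : ℝ) (x x' : E d) : |cutoff M x - cutoff M x'| ≤ ‖x - x'‖ := by
  unfold cutoff
  have h1 : |max 0 (min 1 (M + 1 - ‖x‖)) - max 0 (min 1 (M + 1 - ‖x'‖))|
      ≤ |min 1 (M + 1 - ‖x‖) - min 1 (M + 1 - ‖x'‖)| := by
    have := abs_max_sub_max_le_max 0 (min 1 (M + 1 - ‖x‖)) 0 (min 1 (M + 1 - ‖x'‖))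
    simpa using this
  have h2 : |min 1 (M + 1 - ‖x‖) - min 1 (M + 1 - ‖x'‖)| ≤ |(M + 1 - ‖x‖) - (M + 1 - ‖x'‖)| := by
    have := abs_min_sub_min_le_max 1 (M + 1 - ‖x‖) 1 (M + 1 - ‖x'‖)
    simpa using this
  have h3 : |(M + 1 - ‖x‖) - (M + 1 - ‖x'‖)| ≤ ‖x - x'‖ := by
    have : (M + 1 - ‖x‖) - (M + 1 - ‖x'‖) = ‖x'‖ - ‖x‖ := by ring
    rw [this, norm_sub_rev]
    exact abs_norm_sub_norm_le x' x
  linarith

lemma hasCompactSupport_cutoff (M : ℝ) : HasCompactSupport (cutoff (d := d) M) := by
  apply HasCompactSupport.intro (isCompact_closedBall (0 : E d) (M + 1))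
  intro x hx
  apply cutoff_eq_zero
  simp only [Metric.mem_closedBall, dist_zero_right, not_le] at hx
  exact hx.le


/-- symmetric second difference of `φ` at `x` with increment `v` -/
def secDiff (φ : E d → ℝ) (v x : E d) : ℝ := φ (x + v) + φ (x - v) - 2 * φ x

lemma secDiff_nonneg {φ : E d → ℝ} (hφ : ConvexOn ℝ univ φ) (v x : E d) : 0 ≤ secDiff φ v x := by
  unfold secDiff
  have h := hφ.2 (mem_univ (x + v)) (mem_univ (x - v)) (by norm_num : (0:ℝ) ≤ 1/2)
    (by norm_num : (0:ℝ) ≤ 1/2) (by norm_num)
  have hx : (1/2 : ℝ) • (x + v) + (1/2 : ℝ) • (x - v) = x := by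
    rw [← smul_add]
    have : x + v + (x - v) = (2:ℝ) • x := by rw [two_smul]; abel
    rw [this, smul_smul]; norm_num
  rw [hx] at h
  simp only [smul_eq_mul] at h
  linarith

lemma continuous_secDiff {φ : E d → ℝ} (hφ : Continuous φ) (v : E d) : Continuous (secDiff φ v) := by
  unfold secDiff
  fun_prop

/-- The weighted integral of the second difference of a Lipschitz function is `O(|v|^2)`. -/
lemma integral_cutoff_secDiff_le {φ : E d → ℝ} {R : ℝ≥0} (hφ : LipschitzWith R φ) (M : ℝ)
    (v : E d) (hv : ‖v‖ ≤ 1) :
    ∫ x, cutoff M x * secDiff φ v x ≤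
      R * ‖v‖ ^ 2 * (volume (Metric.closedBall (0 : E d) (M + 2))).toReal := by
  have hc : Continuous φ := hφ.continuous
  set g : E d → ℝ := fun x => φ (x + v) - φ x with hg
  have hgc : Continuous g := by rw [hg]; fun_prop
  have hgb : ∀ x, |g x| ≤ R * ‖v‖ := by
    intro x
    have := hφ.dist_le_mul (x + v) x
    rw [Real.dist_eq, dist_eq_norm] at this
    simpa using this
  have hχ := continuous_cutoff (d := d) M
  have hχs := hasCompactSupport_cutoff (d := d) M
  -- the three integrable pieces
  have i1 : Integrable (fun x => cutoff M x * g x) :=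
    (hχ.mul hgc).integrable_of_hasCompactSupport hχs.mul_right
  have i2 : Integrable (fun x => cutoff M x * g (x - v)) := by
    have : Continuous fun x => cutoff M x * g (x - v) := by fun_prop
    exact this.integrable_of_hasCompactSupport hχs.mul_right
  have i3 : Integrable (fun x => cutoff M (x + v) * g x) := by
    have := i2.comp_add_right v
    simpa using this
  have e1 : ∫ x, cutoff M x * g (x - v) = ∫ x, cutoff M (x + v) * g x := by
    have := integral_add_right_eq_self (μ := (volume : Measure (E d)))
      (fun x => cutoff M x * g (x - v)) v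
    rw [← this]
    simp
  have e2 : ∫ x, cutoff M x * secDiff φ v x = ∫ x, (cutoff M x - cutoff M (x + v)) * g x := by
    have : ∀ x, cutoff M x * secDiff φ v x = cutoff M x * g x - cutoff M x * g (x - v) := by
      intro x
      simp only [hg, secDiff, sub_add_cancel]
      ring
    simp_rw [this]
    rw [integral_sub i1 i2, e1, ← integral_sub i1 i3]
    congr 1
    ext x
    ring
  rw [e2]
  have hball : MeasurableSet (Metric.closedBall (0 : E d) (M + 2)) :=
    Metric.isClosed_closedBall.measurableSet
  have hfin : volume (Metric.closedBall (0 : E d) (M + 2)) ≠ ∞ :=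
    (isCompact_closedBall _ _).measure_lt_top.ne
  calc ∫ x, (cutoff M x - cutoff M (x + v)) * g x
      ≤ ∫ x, (Metric.closedBall (0 : E d) (M + 2)).indicator (fun _ => R * ‖v‖ ^ 2) x := by
        apply integral_mono
        · have := i1.sub i3
          refine this.congr (Filter.Eventually.of_forall fun x => ?_)
          simp only [Pi.sub_apply]
          ring
        · exact (integrable_indicator_iff hball).mpr (integrableOn_const hfin)
        · intro x
          by_cases hx : x ∈ Metric.closedBall (0 : E d) (M + 2)
          · simp only [Set.indicator_of_mem hx]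
            have h1 : |cutoff M x - cutoff M (x + v)| ≤ ‖v‖ := by
              have := cutoff_sub_le M x (x + v)
              simpa using this
            calc (cutoff M x - cutoff M (x + v)) * g x
                ≤ |cutoff M x - cutoff M (x + v)| * |g x| := by
                  rw [← abs_mul]; exact le_abs_self _
              _ ≤ ‖v‖ * (R * ‖v‖) := by
                  apply mul_le_mul h1 (hgb x) (abs_nonneg _) (norm_nonneg _)
              _ = R * ‖v‖ ^ 2 := by ring
          · simp only [Set.indicator_of_notMem hx]
            simp only [Metric.mem_closedBall, dist_zero_right, not_le] at hx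
            have h1 : cutoff M x = 0 := cutoff_eq_zero (by linarith)
            have h2 : cutoff M (x + v) = 0 := by
              apply cutoff_eq_zero
              have := norm_sub_le_norm_add x v
              have := norm_sub_norm_le x (-v)
              simp only [norm_neg, sub_neg_eq_add] at this
              linarith
            rw [h1, h2]
            simp
    _ = R * ‖v‖ ^ 2 * (volume (Metric.closedBall (0 : E d) (M + 2))).toReal := by
        rw [integral_indicator_const _ hball]
        simp [Measure.real, mul_comm]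

end Vale.Agent.Lib.P074
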