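import Vale.Agent.Lib.P074.CoordL1

open MeasureTheory Set
open scoped ENNReal NNReal

namespace Vale.Agent.Lib.P074

variable {d : ℕ}

/-- the constant of the stability estimate; it depends only on `d`, `K` and the radii `RK`, `R` -/
noncomputable def stabConst (K : Set (E d)) (RK R : ℝ≥0) : ℝ≥0 :=
  Real.toNNReal (((R + R) * (d * stabC1 K RK R)) ^ (1 / 2 : ℝ))

/-- **Stability estimate with exponent `1/4` in `W_1`**, for Borel maps that are a.e. subgradients of
convex Lipschitz potentials. -/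
theorem stability_of_potentials {K : Set (E d)} (hK : IsCompact K) (hKvol : volume K ≠ 0) {RK : ℝ≥0}
    (hKR : ∀ x ∈ K, ‖x‖ ≤ RK) {R : ℝ≥0} {T0 T1 : E d → E d} (hT0 : Measurable T0)
    (hT1 : Measurable T1) (hb0 : ∀ᵐ x ∂(unif K), ‖T0 x‖ ≤ R) (hb1 : ∀ᵐ x ∂(unif K), ‖T1 x‖ ≤ R)
    {φ0 φ1 : E d → ℝ} (hc0 : ConvexOn ℝ univ φ0) (hl0 : LipschitzWith R φ0)
    (hl1 : LipschitzWith R φ1)
    (hs0 : ∀ᵐ x ∂(unif K), ∀ z, φ0 x + inner ℝ (T0 x) (z - x) ≤ φ0 z)
    (hs1 : ∀ᵐ x ∂(unif K), ∀ z, φ1 x + inner ℝ (T1 x) (z - x) ≤ φ1 z) :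
    eLpNorm (fun x => T0 x - T1 x) 2 (unif K) ≤
      (stabConst K RK R : ℝ≥0∞) * W1 ((unif K).map T0) ((unif K).map T1) ^ (1 / 4 : ℝ) := by
  have hprob : IsProbabilityMeasure (unif K) := unif_isProb hK hKvol
  set w : ℝ := (W1 ((unif K).map T0) ((unif K).map T1)).toReal with hw
  have hw0 : 0 ≤ w := ENNReal.toReal_nonneg
  have hWfin := W1_map_ne_top hK hKvol hT0 hT1 hb0 hb1
  have hWw : W1 ((unif K).map T0) ((unif K).map T1) = ENNReal.ofReal w :=
    (ENNReal.ofReal_toReal hWfin).symm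
  have hC := stabC1_nonneg K RK R
  -- coordinates
  have hcoord : ∀ k : Fin d, ∀ᵐ x ∂(unif K), |(T1 x - T0 x) k| ≤ R + R := by
    intro k
    filter_upwards [hb0, hb1] with x h0 h1
    have := PiLp.norm_apply_le (T1 x - T0 x) k
    rw [Real.norm_eq_abs] at this
    exact this.trans ((norm_sub_le _ _).trans (by linarith))
  have hmeas : ∀ k : Fin d, Measurable fun x => |(T1 x - T0 x) k| := by
    intro k
    have h1 : Measurable fun x => (T1 x - T0 x) := hT1.sub hT0
    have h2 : Measurable fun y : E d => y k := by fun_prop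
    exact (h2.comp h1).abs
  have iF : ∀ k : Fin d, Integrable (fun x => |(T1 x - T0 x) k|) (unif K) := fun k =>
    Integrable.of_bound (hmeas k).aestronglyMeasurable (R + R)
      ((hcoord k).mono fun x hx => by rw [Real.norm_eq_abs, abs_abs]; exact hx)
  -- the squared norm
  have hsq : ∫⁻ x, ‖T0 x - T1 x‖ₑ ^ (2 : ℝ) ∂(unif K) ≤
      ENNReal.ofReal ((R + R) * (d * stabC1 K RK R) * Real.sqrt w) := by
    have hpt : ∀ᵐ x ∂(unif K), ‖T0 x - T1 x‖ₑ ^ (2 : ℝ) ≤
        ENNReal.ofReal (∑ k : Fin d, (R + R) * |(T1 x - T0 x) k|) := by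
      have hall : ∀ᵐ x ∂(unif K), ∀ k : Fin d, |(T1 x - T0 x) k| ≤ R + R :=
        ae_all_iff.mpr hcoord
      filter_upwards [hall] with x hx
      rw [← ofReal_norm, ENNReal.ofReal_rpow_of_nonneg (norm_nonneg _) (by norm_num)]
      apply ENNReal.ofReal_le_ofReal
      rw [norm_sub_rev, Real.rpow_two, EuclideanSpace.real_norm_sq_eq]
      apply Finset.sum_le_sum
      intro k _
      have := hx k
      rw [← sq_abs]
      nlinarith [abs_nonneg ((T1 x - T0 x) k)]
    refine (lintegral_mono_ae hpt).trans ?_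
    have iSum : Integrable (fun x => ∑ k : Fin d, (R + R) * |(T1 x - T0 x) k|) (unif K) :=
      integrable_finsetSum _ fun k _ => (iF k).const_mul _
    rw [← ofReal_integral_eq_lintegral_ofReal iSum (Filter.Eventually.of_forall fun x =>
      Finset.sum_nonneg fun k _ => by positivity)]
    apply ENNReal.ofReal_le_ofReal
    rw [integral_finsetSum _ fun k _ => (iF k).const_mul _]
    calc ∑ k : Fin d, ∫ x, (R + R) * |(T1 x - T0 x) k| ∂(unif K)
        ≤ ∑ _k : Fin d, (R + R) * (stabC1 K RK R * Real.sqrt w) := by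
          apply Finset.sum_le_sum
          intro k _
          rw [integral_const_mul]
          apply mul_le_mul_of_nonneg_left _ (by positivity)
          exact coord_l1_le hK hKvol hKR hT0 hT1 hb0 hb1 hc0 hl0 hl1 hs0 hs1 k
      _ = (R + R) * (d * stabC1 K RK R) * Real.sqrt w := by
          simp only [Finset.sum_const, Finset.card_univ, Fintype.card_fin, nsmul_eq_mul]
          ring
  rw [eLpNorm_eq_lintegral_rpow_enorm_toReal (by norm_num) (by norm_num)]
  simp only [ENNReal.toReal_ofNat]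
  calc (∫⁻ x, ‖T0 x - T1 x‖ₑ ^ (2 : ℝ) ∂(unif K)) ^ (1 / 2 : ℝ)
      ≤ (ENNReal.ofReal ((R + R) * (d * stabC1 K RK R) * Real.sqrt w)) ^ (1 / 2 : ℝ) :=
        ENNReal.rpow_le_rpow hsq (by norm_num)
    _ = (stabConst K RK R : ℝ≥0∞) * W1 ((unif K).map T0) ((unif K).map T1) ^ (1 / 4 : ℝ) := by
        have hB : 0 ≤ ((R : ℝ) + R) * (d * stabC1 K RK R) := by positivity
        rw [hWw, ENNReal.ofReal_rpow_of_nonneg (by positivity) (by norm_num),
          ENNReal.ofReal_rpow_of_nonneg hw0 (by norm_num), stabConst,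
          ← ENNReal.ofReal, ← ENNReal.ofReal_mul (by positivity)]
        congr 1
        rw [Real.mul_rpow hB (Real.sqrt_nonneg _), Real.sqrt_eq_rpow, ← Real.rpow_mul hw0]
        norm_num

end Vale.Agent.Lib.P074
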