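import Vale.Agent.Lib.P074.LipPotential
import Vale.Agent.Lib.P074.BrenierDefs

open MeasureTheory Set
open scoped ENNReal NNReal

namespace Vale.Agent.Lib.P074

variable {d : ℕ}

lemma exists_nnreal_bound {S : Set (E d)} (hS : IsCompact S) : ∃ R : ℝ≥0, ∀ x ∈ S, ‖x‖ ≤ R := by
  obtain ⟨C, hC⟩ := hS.isBounded.exists_norm_le
  refine ⟨Real.toNNReal C, fun x hx => (hC x hx).trans (Real.le_coe_toNNReal C)⟩

lemma ae_norm_le_of_map {ρ μ : Measure (E d)} {T : E d → E d} (hT : Measurable T) (hmap : ρ.map T = μ)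
    {Y : Set (E d)} (hY : IsCompact Y) (hμ : μ (Y)ᶜ = 0) {R : ℝ≥0} (hYR : ∀ y ∈ Y, ‖y‖ ≤ R) :
    ∀ᵐ x ∂ρ, ‖T x‖ ≤ R := by
  rw [← hmap, Measure.map_apply hT hY.isClosed.measurableSet.compl] at hμ
  have := measure_eq_zero_iff_ae_notMem.mp hμ
  filter_upwards [this] with x hx
  simp only [mem_preimage, mem_compl_iff, not_not] at hx
  exact hYR _ hx

/-- stability with exponent `1/4` in `W_1`, given potentials for both maps -/
theorem stability_W1 {K : Set (E d)} (hK : IsCompact K) (hKi : (interior K).Nonempty)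
    {Y : Set (E d)} (hY : IsCompact Y) {RK R : ℝ≥0} (hKR : ∀ x ∈ K, ‖x‖ ≤ RK)
    (hYR : ∀ y ∈ Y, ‖y‖ ≤ R) {μ ν : Measure (E d)} (hμ : μ (Y)ᶜ = 0) (hν : ν (Y)ᶜ = 0)
    {Tμ Tν : E d → E d} (hTμ : Measurable Tμ) (hTν : Measurable Tν)
    (hmμ : (unif K).map Tμ = μ) (hmν : (unif K).map Tν = ν) {φ0 φ1 : E d → ℝ}
    (hs0 : ∀ᵐ x ∂(unif K), ∀ z, φ0 x + inner ℝ (Tμ x) (z - x) ≤ φ0 z)
    (hs1 : ∀ᵐ x ∂(unif K), ∀ z, φ1 x + inner ℝ (Tν x) (z - x) ≤ φ1 z) :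
    eLpNorm (fun x => Tμ x - Tν x) 2 (unif K) ≤ (stabConst K RK R : ℝ≥0∞) * W1 μ ν ^ (1 / 4 : ℝ) := by
  have hKvol : volume K ≠ 0 := (Measure.measure_pos_of_nonempty_interior _ hKi).ne'
  have hprob : IsProbabilityMeasure (unif K) := unif_isProb hK hKvol
  have hb0 := ae_norm_le_of_map hTμ hmμ hY hμ hYR
  have hb1 := ae_norm_le_of_map hTν hmν hY hν hYR
  obtain ⟨ψ0, hc0, hl0, ht0⟩ := exists_lipschitz_potential (unif K) hb0 hs0
  obtain ⟨ψ1, -, hl1, ht1⟩ := exists_lipschitz_potential (unif K) hb1 hs1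
  have := stability_of_potentials hK hKvol hKR hTμ hTν hb0 hb1 hc0 hl0 hl1 ht0 ht1
  rwa [hmμ, hmν] at this

end Vale.Agent.Lib.P074
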