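import Vale.Agent.Lib.P074.Integrated

open MeasureTheory Set
open scoped ENNReal NNReal

namespace Vale.Agent.Lib.P074

variable {d : ℕ}

/-- The Wasserstein distance `W_1(μ, ν) = inf_π ∫ |y - z| dπ(y, z)` over couplings `π` of `μ, ν`. -/
noncomputable def W1 (μ ν : Measure (E d)) : ℝ≥0∞ :=
  ⨅ π : {π : Measure (E d × E d) // π.map Prod.fst = μ ∧ π.map Prod.snd = ν},
    ∫⁻ p, enorm (p.1 - p.2) ∂π.1

lemma coupling_l1_le_l2 (μ : Measure (E d)) [IsProbabilityMeasure μ] (π : Measure (E d × E d))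
    (h1 : π.map Prod.fst = μ) :
    ∫⁻ p, enorm (p.1 - p.2) ∂π ≤ (∫⁻ p, enorm (p.1 - p.2) ^ 2 ∂π) ^ (1 / 2 : ℝ) := by
  have hπ : IsProbabilityMeasure π := by
    constructor
    have : μ univ = 1 := measure_univ
    rw [← h1, Measure.map_apply measurable_fst MeasurableSet.univ] at this
    simpa using this
  have hf : AEStronglyMeasurable (fun p : E d × E d => p.1 - p.2) π := by
    have : Continuous fun p : E d × E d => p.1 - p.2 := by fun_prop
    exact this.aestronglyMeasurable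
  have h := eLpNorm_le_eLpNorm_of_exponent_le (p := 1) (q := 2) (by norm_num) hf
  rw [eLpNorm_one_eq_lintegral_enorm,
    eLpNorm_eq_lintegral_rpow_enorm_toReal (by norm_num) (by norm_num)] at h
  simpa using h

lemma W1_le_W2 (μ ν : Measure (E d)) [IsProbabilityMeasure μ] : W1 μ ν ≤ W2 μ ν := by
  unfold W2
  have h : W1 μ ν ^ (2 : ℝ) ≤ ⨅ π : {π : Measure (E d × E d) // π.map Prod.fst = μ ∧ π.map Prod.snd = ν},
      ∫⁻ p, enorm (p.1 - p.2) ^ 2 ∂π.1 := by
    apply le_iInf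
    intro π
    have h1 : W1 μ ν ≤ ∫⁻ p, enorm (p.1 - p.2) ∂π.1 := iInf_le _ π
    have h2 := coupling_l1_le_l2 μ π.1 π.2.1
    calc W1 μ ν ^ (2 : ℝ) ≤ ((∫⁻ p, enorm (p.1 - p.2) ^ 2 ∂π.1) ^ (1 / 2 : ℝ)) ^ (2 : ℝ) :=
          ENNReal.rpow_le_rpow (h1.trans h2) (by norm_num)
      _ = _ := by rw [← ENNReal.rpow_mul]; norm_num
  calc W1 μ ν = (W1 μ ν ^ (2 : ℝ)) ^ (1 / 2 : ℝ) := by rw [← ENNReal.rpow_mul]; norm_num
    _ ≤ _ := ENNReal.rpow_le_rpow h (by norm_num)

/-- elementary optimisation in `t` -/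
lemma optimise_t {a A B w r : ℝ} (hA : 0 ≤ A) (hB : 0 ≤ B) (hw : 0 ≤ w) (hr : 0 ≤ r) (har : a ≤ r)
    (h : ∀ t : ℝ, 0 < t → t ≤ 1 → t * a ≤ A * t ^ 2 + B * w) :
    a ≤ (A + B + r) * Real.sqrt w := by
  rcases le_or_gt 1 w with h1 | h1
  · have : 1 ≤ Real.sqrt w := by rw [Real.one_le_sqrt]; exact h1
    nlinarith
  · rcases hw.eq_or_lt with h0 | h0
    · -- w = 0
      subst h0
      simp only [Real.sqrt_zero, mul_zero]
      by_contra hcon
      rw [not_le] at hcon
      -- choose t small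
      set t : ℝ := min 1 (a / (2 * (A + 1))) with ht
      have htpos : 0 < t := lt_min one_pos (by positivity)
      have ht1 : t ≤ 1 := min_le_left _ _
      have ht2 : t ≤ a / (2 * (A + 1)) := min_le_right _ _
      have := h t htpos ht1
      have h3 : t * (2 * (A + 1)) ≤ a := by rwa [le_div_iff₀ (by positivity)] at ht2
      nlinarith
    · set s := Real.sqrt w with hs
      have hspos : 0 < s := Real.sqrt_pos.mpr h0
      have hs1 : s ≤ 1 := by
        rw [hs, ← Real.sqrt_one]; exact Real.sqrt_le_sqrt h1.le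
      have hss : s ^ 2 = w := Real.sq_sqrt hw
      have := h s hspos hs1
      rw [← hss] at this
      have h4 : s * a ≤ s * ((A + B) * s) := by nlinarith
      have h5 : a ≤ (A + B) * s := le_of_mul_le_mul_left h4 hspos
      nlinarith

end Vale.Agent.Lib.P074
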